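import Vale.Agent.P218.H552.Bridge2

set_option linter.unusedSectionVars false

/-! Uniform bound for wider Gaussian integrals of the rescaled slices. -/

open MeasureTheory Set Filter Topology Metric
open scoped ENNReal NNReal RealInnerProductSpace

namespace Vale.Agent.P218.H552

open Vale.Agent.P214 (IntegralVarifold proj divAlong IsTestField)

variable {E : Type*} [NormedAddCommGroup E] [InnerProductSpace ℝ E] [FiniteDimensional ℝ E]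
  [MeasurableSpace E] [BorelSpace E]

variable {m : ℕ} {μ : ℝ → Measure E} {T : ℝ → E → Submodule ℝ E} {H : ℝ → E → E}

theorem gauss_bound (hB : BF m μ T H) (h0 : μ 0 univ < ⊤) (x₀ : E) {t₀ : ℝ} (ht : 0 < t₀)
    {k : ℝ} (hk : 1 ≤ k) {τ : ℝ} (hτ : tau0 t₀ ≤ τ) :
    ∫ y, Real.exp (-‖y‖ ^ 2 / (4 * k)) ∂(NN m μ x₀ t₀ τ)
      ≤ √k ^ m * ((√t₀)⁻¹ ^ m * (μ 0).real univ) := by
  set lam := Real.exp τ with hlam
  have hl : 0 < lam := Real.exp_pos _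
  set t := tim t₀ lam with htt
  have ht0 : 0 ≤ t := tim_nonneg ht hτ
  have hd : t₀ - t = (lam⁻¹) ^ 2 := by
    rw [htt]; unfold tim; field_simp; ring
  have hk0 : 0 < k := by linarith
  set t₁ := t + k * (lam⁻¹) ^ 2 with ht₁
  have hlt : t < t₁ := by
    have : 0 < k * (lam⁻¹) ^ 2 := by positivity
    linarith
  have hge : t₀ ≤ t₁ := by
    have : (lam⁻¹) ^ 2 ≤ k * (lam⁻¹) ^ 2 := le_mul_of_one_le_left (by positivity) hk
    linarith
  have h1 := hB.Th_anti h0 x₀ le_rfl ht0 hlt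
  have hLam : Lam t₁ t = lam / √k := by
    unfold Lam
    have : t₁ - t = k * (lam⁻¹) ^ 2 := by rw [ht₁]; ring
    rw [this, Real.sqrt_mul hk0.le, Real.sqrt_sq (by positivity)]
    field_simp
  have hsk : 0 < √k := Real.sqrt_pos.2 hk0
  have h2 : Th m μ x₀ t₁ t = (√k ^ m)⁻¹ * ∫ y, Real.exp (-‖y‖ ^ 2 / (4 * k)) ∂(NN m μ x₀ t₀ τ) := by
    unfold NN
    rw [integral_rescaled m μ x₀ t₀ (-1) hl]
    unfold Th JJ phi0 gF
    rw [integral_const_mul, hLam]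
    have e1 : ∀ x : E, (1 : ℝ) * Real.exp (-‖yy (lam / √k) x₀ x‖ ^ 2 / 4)
        = Real.exp (-‖yy lam x₀ x‖ ^ 2 / (4 * k)) := by
      intro x
      rw [one_mul]
      congr 1
      unfold yy
      rw [norm_smul, norm_smul, Real.norm_eq_abs, Real.norm_eq_abs, abs_of_pos hl,
        abs_of_pos (by positivity), mul_pow, mul_pow, div_pow, Real.sq_sqrt hk0.le]
      field_simp
    simp_rw [e1]
    rw [div_pow]
    have e2 : t₀ + -1 / lam ^ 2 = t := rfl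
    rw [e2]
    field_simp
  have h3 : Th m μ x₀ t₁ 0 ≤ (√t₀)⁻¹ ^ m * (μ 0).real univ := by
    have hfin : IsFiniteMeasure (μ 0) := ⟨h0⟩
    unfold Th JJ
    have h4 : ∀ x : E, phi0 m (fun _ => 1) x₀ t₁ 0 x ≤ (√t₀)⁻¹ ^ m := by
      intro x
      unfold phi0 gF Lam
      have e1 : Real.exp (-‖yy (√(t₁ - 0))⁻¹ x₀ x‖ ^ 2 / 4) ≤ 1 := by
        rw [Real.exp_le_one_iff]
        have := sq_nonneg ‖yy (√(t₁ - 0))⁻¹ x₀ x‖
        linarith
      have e2 : (√(t₁ - 0))⁻¹ ≤ (√t₀)⁻¹ := by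
        apply inv_anti₀ (Real.sqrt_pos.2 ht)
        exact Real.sqrt_le_sqrt (by linarith)
      have e3 : 0 ≤ (√(t₁ - 0))⁻¹ := by positivity
      calc (√(t₁ - 0))⁻¹ ^ m * (1 * Real.exp (-‖yy (√(t₁ - 0))⁻¹ x₀ x‖ ^ 2 / 4))
          ≤ (√t₀)⁻¹ ^ m * (1 * 1) := by gcongr
        _ = (√t₀)⁻¹ ^ m := by ring
    calc ∫ x, phi0 m (fun _ => 1) x₀ t₁ 0 x ∂(μ 0) ≤ ∫ x, (√t₀)⁻¹ ^ m ∂(μ 0) :=
          integral_mono (integrable_phi0 x₀ t₁ 0 continuous_const (A := 1)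
            (fun y => by simp)) (integrable_const _) h4
      _ = (√t₀)⁻¹ ^ m * (μ 0).real univ := by rw [integral_const, smul_eq_mul]; ring
  have h5 : (√k ^ m)⁻¹ * ∫ y, Real.exp (-‖y‖ ^ 2 / (4 * k)) ∂(NN m μ x₀ t₀ τ)
      ≤ (√t₀)⁻¹ ^ m * (μ 0).real univ := by
    rw [← h2]; exact h1.trans h3
  have h6 : 0 < √k ^ m := by positivity
  calc ∫ y, Real.exp (-‖y‖ ^ 2 / (4 * k)) ∂(NN m μ x₀ t₀ τ)
      = √k ^ m * ((√k ^ m)⁻¹ * ∫ y, Real.exp (-‖y‖ ^ 2 / (4 * k)) ∂(NN m μ x₀ t₀ τ)) := by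
        field_simp
    _ ≤ _ := mul_le_mul_of_nonneg_left h5 h6.le

end Vale.Agent.P218.H552
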