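import Vale.Agent.P218.H552.Key2
import Vale.Agent.P218.Slow

open MeasureTheory Set Filter Topology Metric
open scoped ENNReal NNReal RealInnerProductSpace

namespace Vale.Agent.P218.H552

open Vale.Agent.P214 (IntegralVarifold proj divAlong IsTestField)

variable {E : Type*} [NormedAddCommGroup E] [InnerProductSpace ℝ E] [FiniteDimensional ℝ E]
  [MeasurableSpace E] [BorelSpace E]

variable {m : ℕ} {μ : ℝ → Measure E} {T : ℝ → E → Submodule ℝ E} {H : ℝ → E → E}

/-- the time corresponding to the scale `λ` -/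
noncomputable def tim (t₀ lam : ℝ) : ℝ := t₀ + (-1) / lam ^ 2

lemma tim_lt {t₀ lam : ℝ} (h : 0 < lam) : tim t₀ lam < t₀ := by
  unfold tim
  have : 0 < 1 / lam ^ 2 := by positivity
  rw [neg_div]; linarith

lemma Lam_tim {t₀ lam : ℝ} (h : 0 < lam) : Lam t₀ (tim t₀ lam) = lam := by
  unfold Lam tim
  have : t₀ - (t₀ + (-1) / lam ^ 2) = (lam⁻¹) ^ 2 := by
    field_simp; ring
  rw [this, Real.sqrt_sq (by positivity), inv_inv]

lemma tim_mono {t₀ l l' : ℝ} (h : 0 < l) (hl : l ≤ l') : tim t₀ l ≤ tim t₀ l' := by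
  unfold tim
  have : 1 / l' ^ 2 ≤ 1 / l ^ 2 := by
    apply one_div_le_one_div_of_le (by positivity)
    gcongr
  rw [neg_div, neg_div]; linarith

/-- integral over a rescaled measure -/
lemma integral_rescaled (m : ℕ) (μ : ℝ → Measure E) (x₀ : E) (t₀ s : ℝ) {lam : ℝ} (h : 0 < lam)
    (g : E → ℝ) : ∫ y, g y ∂(rescaled m μ x₀ t₀ lam s)
      = lam ^ m * ∫ x, g (yy lam x₀ x) ∂(μ (t₀ + s / lam ^ 2)) := by
  unfold rescaled
  rw [integral_smul_measure, ENNReal.toReal_ofReal (by positivity), smul_eq_mul]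
  congr 1
  have he : MeasurableEmbedding (fun x : E => lam • (x - x₀)) :=
    ((Homeomorph.subRight x₀).trans (Homeomorph.smulOfNeZero lam h.ne')).measurableEmbedding
  rw [he.integral_map]
  rfl

/-- the weighted integral at scale `λ` -/
lemma JJ_tim (m : ℕ) (μ : ℝ → Measure E) (x₀ : E) (t₀ : ℝ) {lam : ℝ} (h : 0 < lam)
    (g : E → ℝ) : JJ m μ x₀ t₀ g (tim t₀ lam)
      = ∫ y, gF g y ∂(rescaled m μ x₀ t₀ lam (-1)) := by
  rw [integral_rescaled m μ x₀ t₀ (-1) h]
  unfold JJ phi0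
  rw [integral_const_mul, Lam_tim h]
  rfl

/-- rescaled measures at time `s` are dilations of those at time `-1` -/
lemma rescaled_eq (m : ℕ) (μ : ℝ → Measure E) (x₀ : E) (t₀ : ℝ) {lam s : ℝ} (h : 0 < lam)
    (hs : s < 0) : rescaled m μ x₀ t₀ lam s
      = ENNReal.ofReal (√(-s) ^ m) •
        (rescaled m μ x₀ t₀ (lam / √(-s)) (-1)).map (fun y => √(-s) • y) := by
  have hs' : 0 < √(-s) := Real.sqrt_pos.2 (by linarith)
  unfold rescaled
  have e1 : t₀ + (-1) / (lam / √(-s)) ^ 2 = t₀ + s / lam ^ 2 := by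
    rw [div_pow, Real.sq_sqrt (by linarith)]
    field_simp
  rw [e1, Measure.map_smul, Measure.map_map (by fun_prop) (by fun_prop), smul_smul,
    ← ENNReal.ofReal_mul (by positivity)]
  congr 1
  · congr 1
    rw [div_pow]
    field_simp
  · congr 1
    ext x
    simp only [Function.comp, smul_smul]
    congr 1
    field_simp

end Vale.Agent.P218.H552
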