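import Vale.Agent.P218.H552.Bridge

set_option linter.unusedSectionVars false

open MeasureTheory Set Filter Topology Metric
open scoped ENNReal NNReal RealInnerProductSpace

namespace Vale.Agent.P218.H552

open Vale.Agent.P214 (IntegralVarifold proj divAlong IsTestField)

variable {E : Type*} [NormedAddCommGroup E] [InnerProductSpace ℝ E] [FiniteDimensional ℝ E]
  [MeasurableSpace E] [BorelSpace E]

variable {m : ℕ} {μ : ℝ → Measure E} {T : ℝ → E → Submodule ℝ E} {H : ℝ → E → E}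

/-- the family of rescaled slices `μ^λ_{-1}`, `λ = e^τ` -/
noncomputable def NN (m : ℕ) (μ : ℝ → Measure E) (x₀ : E) (t₀ τ : ℝ) : Measure E :=
  rescaled m μ x₀ t₀ (Real.exp τ) (-1)

/-- the density at scale `e^{-τ}` -/
noncomputable def th (m : ℕ) (μ : ℝ → Measure E) (x₀ : E) (t₀ τ : ℝ) : ℝ :=
  Th m μ x₀ t₀ (tim t₀ (Real.exp τ))

/-- the first admissible logarithmic scale -/
noncomputable def tau0 (t₀ : ℝ) : ℝ := -(1 / 2) * Real.log t₀

lemma tim_nonneg {t₀ τ : ℝ} (ht : 0 < t₀) (h : tau0 t₀ ≤ τ) : 0 ≤ tim t₀ (Real.exp τ) := by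
  unfold tim tau0 at *
  rw [← Real.exp_nat_mul]
  have h1 : (-1 : ℝ) / Real.exp (((2 : ℕ) : ℝ) * τ) = - Real.exp (-(2 * τ)) := by
    rw [Real.exp_neg]
    push_cast
    field_simp
  rw [h1]
  have h2 : Real.exp (-(2 * τ)) ≤ Real.exp (Real.log t₀) := Real.exp_le_exp.2 (by linarith)
  rw [Real.exp_log ht] at h2
  linarith

section
variable (hB : BF m μ T H) (h0 : μ 0 univ < ⊤)
include hB h0

lemma th_anti (x₀ : E) {t₀ : ℝ} (ht : 0 < t₀) {a b : ℝ} (ha : tau0 t₀ ≤ a) (hab : a ≤ b) :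
    th m μ x₀ t₀ b ≤ th m μ x₀ t₀ a :=
  hB.Th_anti h0 x₀ (tim_nonneg ht ha) (tim_mono (Real.exp_pos _) (Real.exp_le_exp.2 hab))
    (tim_lt (Real.exp_pos _))

omit hB h0 in
lemma th_nonneg (x₀ : E) (t₀ a : ℝ) : 0 ≤ th m μ x₀ t₀ a := Th_nonneg _ _ _

lemma key_tau (x₀ : E) {t₀ : ℝ} (ht : 0 < t₀) {a b : ℝ} (ha : tau0 t₀ ≤ a) (hab : a ≤ b)
    {A B : ℝ} (hA : 0 ≤ A) (hB0 : 0 ≤ B) {g : E → ℝ}
    (hg : ContDiff ℝ 1 g) (hgc : HasCompactSupport g) (hgA : ∀ y, |g y| ≤ A)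
    (hgB : ∀ y, ‖fderiv ℝ g y‖ ≤ B) :
    |∫ y, gF g y ∂(NN m μ x₀ t₀ b) - ∫ y, gF g y ∂(NN m μ x₀ t₀ a)|
      ≤ A * (th m μ x₀ t₀ a - th m μ x₀ t₀ b)
        + B * √(th m μ x₀ t₀ a * (2 * (b - a)) * (th m μ x₀ t₀ a - th m μ x₀ t₀ b)) := by
  have h1 := hB.key h0 x₀ (tim_nonneg ht ha) (tim_mono (Real.exp_pos _) (Real.exp_le_exp.2 hab))
    (tim_lt (Real.exp_pos _)) hA hB0 hg hgc hgA hgB
  rw [JJ_tim _ _ _ _ (Real.exp_pos _), JJ_tim _ _ _ _ (Real.exp_pos _)] at h1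
  have h2 : Real.log ((t₀ - tim t₀ (Real.exp a)) / (t₀ - tim t₀ (Real.exp b))) = 2 * (b - a) := by
    unfold tim
    have : (t₀ - (t₀ + -1 / Real.exp a ^ 2)) / (t₀ - (t₀ + -1 / Real.exp b ^ 2))
        = Real.exp (2 * (b - a)) := by
      rw [← Real.exp_nat_mul, ← Real.exp_nat_mul]
      have e : Real.exp (2 * (b - a)) = Real.exp (((2 : ℕ) : ℝ) * b) / Real.exp (((2 : ℕ) : ℝ) * a) := by
        rw [← Real.exp_sub]; congr 1; push_cast; ring
      rw [e]
      field_simp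
      ring
    rw [this, Real.log_exp]
  rw [h2] at h1
  exact h1

omit hB h0 in
/-- a nonincreasing nonnegative function has small drops eventually -/
lemma exists_drop_le {θ : ℝ → ℝ} {τ₀ : ℝ} (hanti : ∀ a b, τ₀ ≤ a → a ≤ b → θ b ≤ θ a)
    (hθ : ∀ τ, 0 ≤ θ τ) {δ : ℝ} (hδ : 0 < δ) :
    ∃ S ≥ τ₀, ∀ a b, S ≤ a → a ≤ b → θ a - θ b ≤ δ := by
  set I := sInf (θ '' Ici τ₀) with hI
  have hbdd : BddBelow (θ '' Ici τ₀) := ⟨0, by rintro _ ⟨a, -, rfl⟩; exact hθ a⟩
  have hne : (θ '' Ici τ₀).Nonempty := ⟨θ τ₀, τ₀, mem_Ici.2 le_rfl, rfl⟩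
  obtain ⟨_, ⟨S, hS, rfl⟩, hS2⟩ := exists_lt_of_csInf_lt hne (show I < I + δ by linarith)
  refine ⟨S, hS, fun a b ha hab => ?_⟩
  have h1 : θ a ≤ θ S := hanti S a hS ha
  have h2 : I ≤ θ b := csInf_le hbdd ⟨b, (hS.trans ha).trans hab, rfl⟩
  linarith

omit [MeasurableSpace E] [BorelSpace E] hB h0 in
/-- unweighting a test function -/
lemma exists_unweight {φ : E → ℝ} (hφ : ContDiff ℝ 1 φ) (hφc : HasCompactSupport φ) :
    ∃ g : E → ℝ, ContDiff ℝ 1 g ∧ HasCompactSupport g ∧ (∀ y, gF g y = φ y) := by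
  refine ⟨fun y => φ y * Real.exp (‖y‖ ^ 2 / 4), ?_, hφc.mul_right, fun y => ?_⟩
  · have h1 : ContDiff ℝ 1 (fun y : E => ‖y‖ ^ 2) := contDiff_norm_sq ℝ
    fun_prop
  · unfold gF
    rw [mul_assoc, ← Real.exp_add]
    have : ‖y‖ ^ 2 / 4 + -‖y‖ ^ 2 / 4 = 0 := by ring
    rw [this, Real.exp_zero, mul_one]

lemma NN_finite (x₀ : E) {t₀ : ℝ} (ht : 0 < t₀) {a : ℝ} (ha : tau0 t₀ ≤ a) :
    IsFiniteMeasure (NN m μ x₀ t₀ a) := by
  unfold NN rescaled
  have h1 : IsFiniteMeasure (μ (t₀ + -1 / Real.exp a ^ 2)) := hB.finite h0 (tim_nonneg ht ha)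
  have h2 : IsFiniteMeasure ((μ (t₀ + -1 / Real.exp a ^ 2)).map
    (fun x => Real.exp a • (x - x₀))) := Measure.isFiniteMeasure_map _ _
  exact Measure.smul_finite _ ENNReal.ofReal_ne_top

omit hB h0 in
lemma th_eq (x₀ : E) (t₀ a : ℝ) :
    th m μ x₀ t₀ a = ∫ y, Real.exp (-‖y‖ ^ 2 / 4) ∂(NN m μ x₀ t₀ a) := by
  unfold th Th
  rw [JJ_tim _ _ _ _ (Real.exp_pos _)]
  unfold NN gF
  simp

/-- **The rescaled slices vary slowly.** -/
theorem slow_NN (x₀ : E) {t₀ : ℝ} (ht : 0 < t₀) : Slow (NN m μ x₀ t₀) (tau0 t₀) where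
  bdd := by
    intro K hK
    obtain ⟨R, hR⟩ := hK.isBounded.subset_closedBall (0 : E)
    set M := Real.exp (R ^ 2 / 4) * th m μ x₀ t₀ (tau0 t₀) with hM
    have hM0 : 0 ≤ M := mul_nonneg (Real.exp_pos _).le (th_nonneg _ _ _)
    refine ⟨M.toNNReal, fun τ hτ => ?_⟩
    have hfin := NN_finite hB h0 x₀ ht hτ
    have h1 : (NN m μ x₀ t₀ τ).real K ≤ M := by
      have h2 : Real.exp (-(R ^ 2) / 4) * (NN m μ x₀ t₀ τ).real K ≤ th m μ x₀ t₀ τ := by
        rw [th_eq]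
        have hint : Integrable (fun y : E => Real.exp (-‖y‖ ^ 2 / 4)) (NN m μ x₀ t₀ τ) := by
          apply Integrable.of_bound (contDiff_gauss (E := E)).continuous.aestronglyMeasurable 1
          refine Eventually.of_forall fun y => ?_
          rw [Real.norm_eq_abs, abs_of_pos (Real.exp_pos _), Real.exp_le_one_iff]
          have := sq_nonneg ‖y‖
          linarith
        calc Real.exp (-(R ^ 2) / 4) * (NN m μ x₀ t₀ τ).real K
            = ∫ y in K, Real.exp (-(R ^ 2) / 4) ∂(NN m μ x₀ t₀ τ) := by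
              rw [setIntegral_const, smul_eq_mul, mul_comm]
          _ ≤ ∫ y in K, Real.exp (-‖y‖ ^ 2 / 4) ∂(NN m μ x₀ t₀ τ) := by
              apply setIntegral_mono_on (integrable_const _).integrableOn hint.integrableOn
                hK.measurableSet
              intro y hy
              apply Real.exp_le_exp.2
              have h3 := hR hy
              rw [mem_closedBall, dist_zero_right] at h3
              have h4 : ‖y‖ ^ 2 ≤ R ^ 2 := pow_le_pow_left₀ (norm_nonneg _) h3 2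
              linarith
          _ ≤ _ := setIntegral_le_integral hint (Eventually.of_forall fun y => (Real.exp_pos _).le)
      have h3 : th m μ x₀ t₀ τ ≤ th m μ x₀ t₀ (tau0 t₀) := th_anti hB h0 x₀ ht le_rfl hτ
      have h4 : Real.exp (R ^ 2 / 4) * Real.exp (-(R ^ 2) / 4) = 1 := by
        rw [← Real.exp_add]
        have : R ^ 2 / 4 + -(R ^ 2) / 4 = 0 := by ring
        rw [this, Real.exp_zero]
      calc (NN m μ x₀ t₀ τ).real K
          = Real.exp (R ^ 2 / 4) * (Real.exp (-(R ^ 2) / 4) * (NN m μ x₀ t₀ τ).real K) := by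
            rw [← mul_assoc, h4, one_mul]
        _ ≤ M := mul_le_mul_of_nonneg_left (h2.trans h3) (Real.exp_pos _).le
    rw [measureReal_def] at h1
    change NN m μ x₀ t₀ τ K ≤ ENNReal.ofReal M
    rw [← ENNReal.ofReal_toReal (measure_ne_top (NN m μ x₀ t₀ τ) K)]
    exact ENNReal.ofReal_le_ofReal h1
  slow := by
    intro φ hφ hφc h hh ε hε
    obtain ⟨g, hg, hgc, hgφ⟩ := exists_unweight hφ hφc
    obtain ⟨A, hA0, hA1, hA2, -⟩ := exists_bounds hg hgc
    set Q := th m μ x₀ t₀ (tau0 t₀) with hQ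
    have hQ0 : 0 ≤ Q := th_nonneg _ _ _
    -- choose δ
    have hcont : Tendsto (fun δ : ℝ => A * δ + A * √(Q * (2 * h) * δ)) (𝓝[>] 0) (𝓝 0) := by
      have h1 : Continuous (fun δ : ℝ => A * δ + A * √(Q * (2 * h) * δ)) := by fun_prop
      have h2 := h1.tendsto 0
      simp only [mul_zero, Real.sqrt_zero, add_zero] at h2
      exact h2.mono_left nhdsWithin_le_nhds
    obtain ⟨δ, hδ1, hδ0⟩ := ((hcont.eventually (gt_mem_nhds hε)).and self_mem_nhdsWithin).exists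
    obtain ⟨S, hS, hS2⟩ := exists_drop_le (θ := th m μ x₀ t₀) (τ₀ := tau0 t₀)
      (fun a b ha hab => th_anti hB h0 x₀ ht ha hab) (fun τ => th_nonneg _ _ _) (mem_Ioi.1 hδ0)
    refine ⟨S, hS, fun τ τ' h1 h2 h3 => ?_⟩
    have h4 := key_tau hB h0 x₀ ht (hS.trans h1) h2 hA0 hA0 hg hgc hA1 hA2
    simp_rw [hgφ] at h4
    refine h4.trans ?_
    have h5 : th m μ x₀ t₀ τ - th m μ x₀ t₀ τ' ≤ δ := hS2 τ τ' h1 h2
    have h6 : 0 ≤ th m μ x₀ t₀ τ - th m μ x₀ t₀ τ' := by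
      have := th_anti hB h0 x₀ ht (hS.trans h1) h2
      linarith
    have h7 : th m μ x₀ t₀ τ ≤ Q := th_anti hB h0 x₀ ht le_rfl (hS.trans h1)
    have h8 : 0 ≤ th m μ x₀ t₀ τ := th_nonneg _ _ _
    have h9 : th m μ x₀ t₀ τ * (2 * (τ' - τ)) * (th m μ x₀ t₀ τ - th m μ x₀ t₀ τ')
        ≤ Q * (2 * h) * δ := by
      apply mul_le_mul _ h5 h6 (by positivity)
      apply mul_le_mul h7 (by linarith) (by linarith) hQ0
    have h10 : A * (th m μ x₀ t₀ τ - th m μ x₀ t₀ τ') ≤ A * δ := mul_le_mul_of_nonneg_left h5 hA0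
    have h11 : A * √(th m μ x₀ t₀ τ * (2 * (τ' - τ)) * (th m μ x₀ t₀ τ - th m μ x₀ t₀ τ'))
        ≤ A * √(Q * (2 * h) * δ) := mul_le_mul_of_nonneg_left (Real.sqrt_le_sqrt h9) hA0
    linarith

/-- the self-similar extension of a slice -/
noncomputable def ext (m : ℕ) (κ : Measure E) (s : ℝ) : Measure E :=
  ENNReal.ofReal (√(-s) ^ m) • κ.map (fun y => √(-s) • y)

omit hB h0 in
lemma locFin_ext (m : ℕ) (κ : Measure E) [IsLocallyFiniteMeasure κ] {s : ℝ} (hs : s < 0) :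
    IsLocallyFiniteMeasure (ext m κ s) := by
  have hs' : 0 < √(-s) := Real.sqrt_pos.2 (by linarith)
  have h1 : IsFiniteMeasureOnCompacts (ext m κ s) := by
    refine ⟨fun K hK => ?_⟩
    unfold ext
    have he : MeasurableEmbedding (fun y : E => √(-s) • y) :=
      (Homeomorph.smulOfNeZero (√(-s)) hs'.ne').measurableEmbedding
    rw [Measure.smul_apply, smul_eq_mul, he.map_apply]
    apply ENNReal.mul_lt_top ENNReal.ofReal_lt_top
    have h2 : IsCompact ((fun y : E => √(-s) • y) ⁻¹' K) :=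
      (Homeomorph.smulOfNeZero (√(-s)) hs'.ne').isCompact_preimage.2 hK
    exact h2.measure_lt_top
  infer_instance

omit hB h0 in
lemma integral_ext (m : ℕ) (κ : Measure E) {s : ℝ} (hs : s < 0) (φ : E → ℝ) :
    ∫ y, φ y ∂(ext m κ s) = √(-s) ^ m * ∫ y, φ (√(-s) • y) ∂κ := by
  have hs' : 0 < √(-s) := Real.sqrt_pos.2 (by linarith)
  unfold ext
  rw [integral_smul_measure, ENNReal.toReal_ofReal (by positivity), smul_eq_mul]
  congr 1
  have he : MeasurableEmbedding (fun y : E => √(-s) • y) :=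
    (Homeomorph.smulOfNeZero (√(-s)) hs'.ne').measurableEmbedding
  rw [he.integral_map]

omit hB h0 in
lemma weakTendsto_ext {u : ℕ → Measure E} {κ : Measure E} (h : WeakTendsto u κ) (m : ℕ) {s : ℝ}
    (hs : s < 0) : WeakTendsto (fun i => ext m (u i) s) (ext m κ s) := by
  intro φ hφ hφc
  have hs' : 0 < √(-s) := Real.sqrt_pos.2 (by linarith)
  simp_rw [integral_ext m _ hs φ]
  apply Tendsto.const_mul
  apply h (fun y => φ (√(-s) • y)) (hφ.comp (continuous_const_smul _))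
  have := hφc.comp_homeomorph (Homeomorph.smulOfNeZero (√(-s)) hs'.ne')
  exact this

/-- weak limits of slices extend to tangent flows, along the same sequence -/
theorem extend (x₀ : E) {t₀ : ℝ} (ht : 0 < t₀) {τ : ℕ → ℝ} (hτ : Tendsto τ atTop atTop)
    {κ : Measure E} (hκ : WeakTendsto (fun i => NN m μ x₀ t₀ (τ i)) κ) {s : ℝ} (hs : s < 0) :
    WeakTendsto (fun i => rescaled m μ x₀ t₀ (Real.exp (τ i)) s) (ext m κ s) := by
  have hs' : 0 < √(-s) := Real.sqrt_pos.2 (by linarith)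
  have h1 : WeakTendsto (fun i => NN m μ x₀ t₀ (τ i - Real.log (√(-s)))) κ := by
    refine (slow_NN hB h0 x₀ ht).weakTendsto_shift hτ
      (h := |Real.log (√(-s))| + 1) (by positivity) ?_ hκ
    refine Eventually.of_forall fun i => ?_
    have : τ i - Real.log (√(-s)) - τ i = - Real.log (√(-s)) := by ring
    rw [this, abs_neg]
    linarith
  have h2 := weakTendsto_ext h1 m hs
  have h3 : ∀ i, rescaled m μ x₀ t₀ (Real.exp (τ i)) s
      = ext m (NN m μ x₀ t₀ (τ i - Real.log (√(-s)))) s := by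
    intro i
    rw [rescaled_eq m μ x₀ t₀ (Real.exp_pos _) hs]
    unfold ext NN
    rw [Real.exp_sub, Real.exp_log hs']
  simp_rw [h3]
  exact h2

/-- **Every tangent flow is self-similar.** -/
theorem selfSimilar (x₀ : E) {t₀ : ℝ} (ht : 0 < t₀) {ν : ℝ → Measure E}
    (hν : IsTangentFlow m μ x₀ t₀ ν) {s : ℝ} (hs : s < 0) : ν s = ext m (ν (-1)) s := by
  obtain ⟨hfin, lam, hlam, hlim⟩ := hν
  have hfs := hfin s hs
  have hf1 := hfin (-1) (by norm_num)
  have hτ : Tendsto (fun i => Real.log (lam i)) atTop atTop := Real.tendsto_log_atTop.comp hlam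
  have hpos : ∀ᶠ i in atTop, Real.exp (Real.log (lam i)) = lam i := by
    filter_upwards [hlam.eventually_gt_atTop 0] with i hi using Real.exp_log hi
  have h1 : WeakTendsto (fun i => NN m μ x₀ t₀ (Real.log (lam i))) (ν (-1)) := by
    intro φ hφ hφc
    refine (hlim (-1) (by norm_num) φ hφ hφc).congr' ?_
    filter_upwards [hpos] with i hi
    unfold NN
    rw [hi]
  have h2 := extend hB h0 x₀ ht hτ h1 hs
  have h3 : WeakTendsto (fun i => rescaled m μ x₀ t₀ (lam i) s) (ext m (ν (-1)) s) := by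
    intro φ hφ hφc
    refine (h2 φ hφ hφc).congr' ?_
    filter_upwards [hpos] with i hi
    rw [hi]
  have := locFin_ext m (ν (-1)) hs
  exact weakTendsto_unique (hlim s hs) h3

/-- the slices at time `-1` of tangent flows are the limit set of the slowly varying family -/
theorem tangentSlices_eq (x₀ : E) {t₀ : ℝ} (ht : 0 < t₀) :
    tangentSlices m μ x₀ t₀ = limitSet (NN m μ x₀ t₀) := by
  ext κ
  constructor
  · rintro ⟨ν, ⟨hfin, lam, hlam, hlim⟩, rfl⟩
    refine ⟨hfin (-1) (by norm_num), fun i => Real.log (lam i),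
      Real.tendsto_log_atTop.comp hlam, ?_⟩
    intro φ hφ hφc
    refine (hlim (-1) (by norm_num) φ hφ hφc).congr' ?_
    filter_upwards [hlam.eventually_gt_atTop 0] with i hi
    unfold NN
    rw [Real.exp_log hi]
  · rintro ⟨hκ, τ, hτ, hlim⟩
    refine ⟨fun s => ext m κ s, ⟨fun s hs => locFin_ext m κ hs, fun i => Real.exp (τ i),
      Real.tendsto_exp_atTop.comp hτ, fun s hs => extend hB h0 x₀ ht hτ hlim hs⟩, ?_⟩
    unfold ext
    simp

end

end Vale.Agent.P218.H552
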