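import Vale.Agent.P218.H552.GB
import Vale.Agent.P218.Energy
import Vale.Agent.P218.ZeroOne

set_option linter.unusedSectionVars false

/-! The bridge to the structures `Energy`, `GB` and to the density ratios. -/

open MeasureTheory Set Filter Topology Metric
open scoped ENNReal NNReal RealInnerProductSpace

namespace Vale.Agent.P218.H552

open Vale.Agent.P214 (IntegralVarifold proj divAlong IsTestField)

variable {E : Type*} [NormedAddCommGroup E] [InnerProductSpace ℝ E] [FiniteDimensional ℝ E]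
  [MeasurableSpace E] [BorelSpace E]

variable {m : ℕ} {μ : ℝ → Measure E} {T : ℝ → E → Submodule ℝ E} {H : ℝ → E → E}

/-- off-centre Gaussian integrals of the rescaled slices are off-centre density ratios -/
theorem gi_NN (m : ℕ) (μ : ℝ → Measure E) (x₀ : E) (t₀ τ : ℝ) (y : E) :
    gi (NN m μ x₀ t₀ τ) y
      = √(4 * Real.pi) ^ m * densityRatio m μ (x₀ + Real.exp (-τ) • y) t₀ (Real.exp (-τ)) := by
  unfold gi NN densityRatio
  rw [integral_rescaled m μ x₀ t₀ (-1) (Real.exp_pos _)]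
  have e0 : t₀ + -1 / Real.exp τ ^ 2 = t₀ - Real.exp (-τ) ^ 2 := by
    rw [Real.exp_neg, inv_pow]; ring
  have e1 : ∀ x : E, Real.exp (-‖yy (Real.exp τ) x₀ x - y‖ ^ 2 / 4)
      = Real.exp (-‖x - (x₀ + Real.exp (-τ) • y)‖ ^ 2 / (4 * Real.exp (-τ) ^ 2)) := by
    intro x
    congr 1
    have h1 : yy (Real.exp τ) x₀ x - y = Real.exp τ • (x - (x₀ + Real.exp (-τ) • y)) := by
      unfold yy
      rw [← sub_sub, smul_sub (Real.exp τ) (x - x₀), smul_smul, ← Real.exp_add, add_neg_cancel,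
        Real.exp_zero, one_smul]
    rw [h1, norm_smul, Real.norm_eq_abs, abs_of_pos (Real.exp_pos _), Real.exp_neg]
    have := Real.exp_pos τ
    field_simp
  rw [e0]
  simp_rw [e1]
  generalize (∫ x, Real.exp (-‖x - (x₀ + Real.exp (-τ) • y)‖ ^ 2 / (4 * Real.exp (-τ) ^ 2))
    ∂μ (t₀ - Real.exp (-τ) ^ 2)) = I
  have h4 : √(4 * Real.pi) ^ m ≠ 0 := by positivity
  have h5 : Real.exp (-τ) ^ m ≠ 0 := by positivity
  have h6 : Real.exp τ ^ m * Real.exp (-τ) ^ m = 1 := by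
    rw [← mul_pow, ← Real.exp_add, add_neg_cancel, Real.exp_zero, one_pow]
  rw [mul_pow, ← mul_div_assoc, mul_div_mul_left _ _ h4, eq_div_iff h5]
  calc Real.exp τ ^ m * I * Real.exp (-τ) ^ m = (Real.exp τ ^ m * Real.exp (-τ) ^ m) * I := by ring
    _ = I := by rw [h6, one_mul]

/-- the density at scale `e^{-τ}` -/
theorem th_eq_density (m : ℕ) (μ : ℝ → Measure E) (x₀ : E) (t₀ τ : ℝ) :
    th m μ x₀ t₀ τ = √(4 * Real.pi) ^ m * densityRatio m μ x₀ t₀ (Real.exp (-τ)) := by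
  have h := gi_NN m μ x₀ t₀ τ 0
  rw [smul_zero, add_zero] at h
  rw [← h, th_eq]
  unfold gi
  simp

section
variable (hB : BF m μ T H) (h0 : μ 0 univ < ⊤)
include hB h0

/-- the Gaussian bound -/
theorem exists_GB (x₀ : E) {t₀ : ℝ} (ht : 0 < t₀) :
    ∃ C : ℝ, ∀ τ, tau0 t₀ ≤ τ → GB C (NN m μ x₀ t₀ τ) := by
  refine ⟨√2 ^ m * ((√t₀)⁻¹ ^ m * (μ 0).real univ), fun τ hτ => ⟨?_, ?_⟩⟩
  · have := NN_finite hB h0 x₀ ht hτ
    apply Integrable.of_bound continuous_gw.aestronglyMeasurable 1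
    refine Eventually.of_forall fun x => ?_
    rw [Real.norm_eq_abs, abs_of_pos (gw_pos x)]
    unfold gw
    rw [Real.exp_le_one_iff]
    have := sq_nonneg ‖x‖
    linarith
  · have h := gauss_bound hB h0 x₀ ht (k := 2) (by norm_num) hτ
    have e : ∀ y : E, gw y = Real.exp (-‖y‖ ^ 2 / (4 * 2)) := by
      intro y; unfold gw; norm_num
    simp_rw [e]
    exact h

/-- the energy structure -/
theorem energy_NN (x₀ : E) {t₀ : ℝ} (ht : 0 < t₀) :
    Energy (NN m μ x₀ t₀) (fun τ => densityRatio m μ x₀ t₀ (Real.exp (-τ))) (tau0 t₀) where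
  bdd := (slow_NN hB h0 x₀ ht).bdd
  anti := by
    intro τ τ' h1 h2
    have h3 := th_anti hB h0 x₀ ht h1 h2
    rw [th_eq_density, th_eq_density] at h3
    have h4 : 0 < √(4 * Real.pi) ^ m := by positivity
    exact le_of_mul_le_mul_left h3 h4
  nonneg := by
    intro τ _
    unfold densityRatio
    positivity
  key := by
    intro φ hφ hφc
    obtain ⟨g, hg, hgc, hgφ⟩ := exists_unweight hφ hφc
    obtain ⟨A, hA0, hA1, hA2, -⟩ := exists_bounds hg hgc
    set c := √(4 * Real.pi) ^ m with hc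
    have hc0 : 0 < c := by positivity
    set Q := th m μ x₀ t₀ (tau0 t₀) with hQ
    have hQ0 : 0 ≤ Q := th_nonneg _ _ _
    refine ⟨A * c, A * √(2 * Q * c), by positivity, by positivity, fun τ τ' h1 h2 => ?_⟩
    have h3 := key_tau hB h0 x₀ ht h1 h2 hA0 hA0 hg hgc hA1 hA2
    simp_rw [hgφ] at h3
    refine h3.trans ?_
    have h4 : th m μ x₀ t₀ τ ≤ Q := th_anti hB h0 x₀ ht le_rfl h1
    have h5 : 0 ≤ th m μ x₀ t₀ τ - th m μ x₀ t₀ τ' := by
      have := th_anti hB h0 x₀ ht h1 h2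
      linarith
    have h6 : th m μ x₀ t₀ τ - th m μ x₀ t₀ τ' = c * (densityRatio m μ x₀ t₀ (Real.exp (-τ))
        - densityRatio m μ x₀ t₀ (Real.exp (-τ'))) := by
      rw [th_eq_density, th_eq_density]; ring
    have h7 : √(th m μ x₀ t₀ τ * (2 * (τ' - τ)) * (th m μ x₀ t₀ τ - th m μ x₀ t₀ τ'))
        ≤ √(2 * Q * c) * √((τ' - τ) * (densityRatio m μ x₀ t₀ (Real.exp (-τ))
          - densityRatio m μ x₀ t₀ (Real.exp (-τ')))) := by
      rw [← Real.sqrt_mul (by positivity)]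
      apply Real.sqrt_le_sqrt
      have h8 : th m μ x₀ t₀ τ * (2 * (τ' - τ)) * (th m μ x₀ t₀ τ - th m μ x₀ t₀ τ')
          ≤ Q * (2 * (τ' - τ)) * (th m μ x₀ t₀ τ - th m μ x₀ t₀ τ') := by
        apply mul_le_mul_of_nonneg_right _ h5
        exact mul_le_mul_of_nonneg_right h4 (by linarith)
      refine h8.trans (le_of_eq ?_)
      rw [h6]; ring
    have h9 := mul_le_mul_of_nonneg_left h7 hA0
    rw [h6] at h9 ⊢
    calc _ ≤ A * (c * (densityRatio m μ x₀ t₀ (Real.exp (-τ))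
          - densityRatio m μ x₀ t₀ (Real.exp (-τ'))))
          + A * (√(2 * Q * c) * √((τ' - τ) * (densityRatio m μ x₀ t₀ (Real.exp (-τ))
          - densityRatio m μ x₀ t₀ (Real.exp (-τ'))))) := by
          apply add_le_add le_rfl h9
      _ = _ := by ring

end

end Vale.Agent.P218.H552
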