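import Vale.Agent.P218.Slow

set_option linter.unusedSectionVars false
set_option linter.unusedVariables false

/-! Limit sets of slowly varying families modulo a compact group of linear isometries: either all
elements are congruent, or there are continuum many pairwise non-congruent ones. -/

open MeasureTheory Set Filter Topology
open scoped ENNReal NNReal CompactlySupported

namespace Vale.Agent.P218.H552

variable {E : Type*} [NormedAddCommGroup E] [InnerProductSpace ℝ E] [FiniteDimensional ℝ E]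
  [MeasurableSpace E] [BorelSpace E]

/-- a compact group of linear isometries of `E` -/
structure CptGroup (K : Set (E →L[ℝ] E)) : Prop where
  cpt : IsCompact K
  one : ContinuousLinearMap.id ℝ E ∈ K
  mul : ∀ R ∈ K, ∀ S ∈ K, R.comp S ∈ K
  inv : ∀ R ∈ K, ∃ S ∈ K, R.comp S = ContinuousLinearMap.id ℝ E ∧
    S.comp R = ContinuousLinearMap.id ℝ E
  isom : ∀ R ∈ K, ∀ x, ‖R x‖ = ‖x‖

/-- composition of a compactly supported function with a linear isometry -/
noncomputable def cmp (g : C_c(E, ℝ)) (R : E →L[ℝ] E) (hR : ∀ x, ‖R x‖ = ‖x‖) : C_c(E, ℝ) where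
  toFun := fun x => g (R x)
  continuous_toFun := g.continuous.comp R.continuous
  hasCompactSupport' := by
    obtain ⟨r, hr⟩ := g.hasCompactSupport.isCompact.isBounded.subset_closedBall 0
    refine HasCompactSupport.intro (isCompact_closedBall (0 : E) r) fun x hx => ?_
    apply image_eq_zero_of_notMem_tsupport
    intro h
    have h1 := hr h
    rw [mem_closedBall_zero_iff, hR] at h1
    exact hx (by rwa [mem_closedBall_zero_iff])

variable {N : ℝ → Measure E} {τ₀ : ℝ}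

/-- uniform local bounds for the limit set -/
lemma limitSet_bdd (hN : Slow N τ₀) (r : ℝ) :
    ∃ C : ℝ≥0, ∀ κ ∈ limitSet N, κ (Metric.closedBall 0 r) ≤ C := by
  obtain ⟨χ, hχ1, hχ2⟩ := Vale.Agent.P218.exists_cutoff (E := E) r
  obtain ⟨C, hC⟩ := hN.bdd (tsupport χ) χ.hasCompactSupport
  refine ⟨C, fun κ hκ => ?_⟩
  obtain ⟨hκf, τ, hτ, hlim⟩ := hκ
  have h1 := hlim χ χ.continuous χ.hasCompactSupport
  have h2 : ∫ x, χ x ∂κ ≤ C := by
    apply le_of_tendsto h1
    filter_upwards [hτ.eventually_ge_atTop τ₀] with i hi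
    have h3 := abs_integral_le_of_support (μ := N (τ i)) (φ := χ) (M := 1) χ.hasCompactSupport
      (fun x => by rw [abs_of_nonneg (hχ1 x).1]; exact (hχ1 x).2)
      (fun x hx => image_eq_zero_of_notMem_tsupport hx) (hC _ hi)
    rw [one_mul] at h3
    exact (le_abs_self _).trans h3
  have h4 : κ.real (Metric.closedBall 0 r) ≤ ∫ x, χ x ∂κ := by
    have hint : Integrable (fun x => χ x) κ :=
      χ.continuous.integrable_of_hasCompactSupport χ.hasCompactSupport
    have hfin : κ (Metric.closedBall 0 r) ≠ ⊤ := (isCompact_closedBall (0 : E) r).measure_lt_top.ne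
    calc κ.real (Metric.closedBall 0 r) = ∫ x in Metric.closedBall (0 : E) r, (1 : ℝ) ∂κ := by
          rw [setIntegral_const, smul_eq_mul, mul_one]
      _ ≤ ∫ x in Metric.closedBall (0 : E) r, χ x ∂κ := by
          apply setIntegral_mono_on (integrableOn_const hfin) hint.integrableOn
            Metric.isClosed_closedBall.measurableSet
          intro x hx
          rw [hχ2 x (by simpa using hx)]
      _ ≤ _ := setIntegral_le_integral hint (Eventually.of_forall fun x => (hχ1 x).1)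
  have h5 : κ.real (Metric.closedBall 0 r) ≤ C := h4.trans h2
  have hfin : κ (Metric.closedBall 0 r) ≠ ⊤ := (isCompact_closedBall (0 : E) r).measure_lt_top.ne
  rw [measureReal_def] at h5
  rw [← ENNReal.ofReal_toReal hfin]
  calc ENNReal.ofReal (κ (Metric.closedBall 0 r)).toReal ≤ ENNReal.ofReal C :=
        ENNReal.ofReal_le_ofReal h5
    _ = C := ENNReal.ofReal_coe_nnreal

section
variable {K : Set (E →L[ℝ] E)} (hK : CptGroup K)

/-- uniform continuity in the rotation -/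
lemma exists_delta (g : C_c(E, ℝ)) (hK : CptGroup K) {ε : ℝ} (hε : 0 < ε) :
    ∃ δ > 0, ∀ R ∈ K, ∀ S ∈ K, ‖R - S‖ < δ → ∀ x, |g (R x) - g (S x)| ≤ ε := by
  obtain ⟨r, hr⟩ := g.hasCompactSupport.isCompact.isBounded.subset_closedBall 0
  have hz : ∀ x, max r 1 < ‖x‖ → g x = 0 := by
    intro x hx
    apply image_eq_zero_of_notMem_tsupport
    intro h
    have h1 := hr h
    rw [mem_closedBall_zero_iff] at h1
    have := le_max_left r 1
    linarith
  have huc : UniformContinuous g :=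
    g.continuous.uniformContinuous_of_tendsto_cocompact (x := 0)
      (g.hasCompactSupport.is_zero_at_infty)
  obtain ⟨δ, hδ, h⟩ := Metric.uniformContinuous_iff.1 huc ε hε
  have hr1 : 0 < max r 1 := lt_max_of_lt_right one_pos
  refine ⟨δ / max r 1, by positivity, fun R hR S hS hRS x => ?_⟩
  by_cases hx : max r 1 < ‖x‖
  · rw [hz _ (by rw [hK.isom R hR]; exact hx), hz _ (by rw [hK.isom S hS]; exact hx)]
    simpa using hε.le
  · push Not at hx
    have h1 : dist (R x) (S x) < δ := by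
      rw [dist_eq_norm]
      have h2 : R x - S x = (R - S) x := by simp
      rw [h2]
      calc ‖(R - S) x‖ ≤ ‖R - S‖ * ‖x‖ := ContinuousLinearMap.le_opNorm _ _
        _ ≤ ‖R - S‖ * max r 1 := by gcongr
        _ < δ / max r 1 * max r 1 := by gcongr
        _ = δ := by field_simp
    have h3 := h h1
    rw [Real.dist_eq] at h3
    exact h3.le

/-- finite nets in the group -/
lemma exists_net (hK : CptGroup K) {δ : ℝ} (hδ : 0 < δ) :
    ∃ t : Finset (E →L[ℝ] E), (∀ R ∈ t, R ∈ K) ∧ ∀ R ∈ K, ∃ S ∈ t, ‖R - S‖ < δ := by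
  obtain ⟨t, ht1, ht2, ht3⟩ := hK.cpt.finite_cover_balls hδ
  refine ⟨ht2.toFinset, fun R hR => ht1 (by simpa using hR), fun R hR => ?_⟩
  have := ht3 hR
  simp only [mem_iUnion, Metric.mem_ball] at this
  obtain ⟨S, hS, hRS⟩ := this
  refine ⟨S, by simpa using hS, ?_⟩
  rwa [dist_eq_norm] at hRS

/-- the distance functional -/
noncomputable def DD (hK : CptGroup K) (G : Finset C_c(E, ℝ)) (κ₁ : Measure E)
    (ℓ : C_c(E, ℝ) → ℝ) (R : K) : ℝ :=
  ∑ g ∈ G, |ℓ (cmp g R.1 (hK.isom R.1 R.2)) - ∫ x, g x ∂κ₁|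

/-- the invariant distance to `κ₁` -/
noncomputable def FF (hK : CptGroup K) (G : Finset C_c(E, ℝ)) (κ₁ : Measure E)
    (ℓ : C_c(E, ℝ) → ℝ) : ℝ := ⨅ R : K, DD hK G κ₁ ℓ R

lemma DD_nonneg (hK : CptGroup K) (G : Finset C_c(E, ℝ)) (κ₁ : Measure E) (ℓ : C_c(E, ℝ) → ℝ)
    (R : K) : 0 ≤ DD hK G κ₁ ℓ R := Finset.sum_nonneg fun _ _ => abs_nonneg _

lemma bddBelow_DD (hK : CptGroup K) (G : Finset C_c(E, ℝ)) (κ₁ : Measure E) (ℓ : C_c(E, ℝ) → ℝ) :
    BddBelow (range (DD hK G κ₁ ℓ)) := ⟨0, by rintro _ ⟨R, rfl⟩; exact DD_nonneg _ _ _ _ _⟩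

/-- continuity of the invariant distance on the limit set -/
lemma continuousOn_FF (hN : Slow N τ₀) (hK : CptGroup K) (G : Finset C_c(E, ℝ))
    (κ₁ : Measure E) : ContinuousOn (FF hK G κ₁) (fnl '' limitSet N) := by
  classical
  have hne : Nonempty K := ⟨⟨_, hK.one⟩⟩
  rintro _ ⟨κ₀, hκ₀, rfl⟩
  rw [ContinuousWithinAt, Metric.tendsto_nhds]
  intro ε hε
  -- common radius
  have hrad : ∃ r : ℝ, ∀ g ∈ G, ∀ x, r < ‖x‖ → g x = 0 := by
    have : ∀ g : C_c(E, ℝ), ∃ r : ℝ, ∀ x, r < ‖x‖ → g x = 0 := by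
      intro g
      obtain ⟨r, hr⟩ := g.hasCompactSupport.isCompact.isBounded.subset_closedBall 0
      refine ⟨r, fun x hx => image_eq_zero_of_notMem_tsupport fun h => ?_⟩
      have h1 := hr h
      rw [mem_closedBall_zero_iff] at h1
      linarith
    choose ρ hρ using this
    obtain ⟨r, hr⟩ := (G.image ρ).exists_le
    refine ⟨r, fun g hg x hx => hρ g x (lt_of_le_of_lt (hr _ (Finset.mem_image_of_mem _ hg)) hx)⟩
  obtain ⟨r, hr⟩ := hrad
  obtain ⟨C, hC⟩ := limitSet_bdd hN r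
  set n : ℝ := (G.card : ℝ) + 1 with hn
  have hn0 : 0 < n := by positivity
  set ε' : ℝ := ε / (2 * n * (2 * C + 1)) with hε'
  have hε'0 : 0 < ε' := by positivity
  -- common delta
  have hdel : ∃ δ > 0, ∀ g ∈ G, ∀ R ∈ K, ∀ S ∈ K, ‖R - S‖ < δ → ∀ x, |g (R x) - g (S x)| ≤ ε' := by
    have : ∀ g : C_c(E, ℝ), ∃ δ > 0, ∀ R ∈ K, ∀ S ∈ K, ‖R - S‖ < δ →
        ∀ x, |g (R x) - g (S x)| ≤ ε' := fun g => exists_delta g hK hε'0
    choose ρ hρ0 hρ using this
    rcases G.eq_empty_or_nonempty with h | h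
    · exact ⟨1, one_pos, fun g hg => by simp [h] at hg⟩
    · obtain ⟨g₀, hg₀, hmin⟩ := G.exists_min_image ρ h
      refine ⟨ρ g₀, hρ0 g₀, fun g hg R hR S hS hRS x => ?_⟩
      exact hρ g R hR S hS (lt_of_lt_of_le hRS (hmin g hg)) x
  obtain ⟨δ, hδ0, hδ⟩ := hdel
  obtain ⟨t, ht1, ht2⟩ := exists_net hK hδ0
  -- the neighbourhood
  have hnb : ∀ᶠ ℓ in 𝓝[fnl '' limitSet N] (fnl κ₀), ∀ g ∈ G, ∀ S : t,
      |ℓ (cmp g S.1 (hK.isom S.1 (ht1 _ S.2))) - fnl κ₀ (cmp g S.1 (hK.isom S.1 (ht1 _ S.2)))|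
        < ε' := by
    apply Filter.Eventually.filter_mono nhdsWithin_le_nhds
    rw [Filter.eventually_all_finset]
    intro g hg
    rw [Filter.eventually_all]
    intro S
    have h1 : Tendsto (fun ℓ : C_c(E, ℝ) → ℝ => ℓ (cmp g S.1 (hK.isom S.1 (ht1 _ S.2))))
        (𝓝 (fnl κ₀)) (𝓝 (fnl κ₀ (cmp g S.1 (hK.isom S.1 (ht1 _ S.2))))) :=
      (continuous_apply _).tendsto _
    filter_upwards [Metric.tendsto_nhds.1 h1 ε' hε'0] with ℓ hℓ
    rwa [Real.dist_eq] at hℓ
  filter_upwards [hnb, self_mem_nhdsWithin] with ℓ hℓ hℓ2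
  obtain ⟨κ, hκ, rfl⟩ := hℓ2
  have := hκ.1
  have := hκ₀.1
  -- uniform closeness
  have hcl : ∀ g ∈ G, ∀ R : K, |fnl κ (cmp g R.1 (hK.isom R.1 R.2))
      - fnl κ₀ (cmp g R.1 (hK.isom R.1 R.2))| ≤ ε' * (2 * C + 1) := by
    intro g hg R
    obtain ⟨S, hS, hRS⟩ := ht2 R.1 R.2
    have hSK := ht1 S hS
    have hz : ∀ R' ∈ K, ∀ x, r < ‖x‖ → g (R' x) = 0 := fun R' hR' x hx =>
      hr g hg _ (by rw [hK.isom R' hR']; exact hx)
    have e1 : ∀ κ' ∈ limitSet N, |∫ x, g (R.1 x) ∂κ' - ∫ x, g (S x) ∂κ'| ≤ ε' * C := by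
      intro κ' hκ'
      have := hκ'.1
      exact abs_integral_sub_le (g.continuous.comp R.1.continuous) (g.continuous.comp S.continuous)
        (hz R.1 R.2) (hz S hSK) (fun x _ => hδ g hg R.1 R.2 S hSK hRS x) hε'0.le (hC κ' hκ')
    have e2 := e1 κ hκ
    have e3 := e1 κ₀ hκ₀
    have e4 : |∫ x, g (S x) ∂κ - ∫ x, g (S x) ∂κ₀| < ε' := hℓ g hg ⟨S, hS⟩
    change |∫ x, g (R.1 x) ∂κ - ∫ x, g (R.1 x) ∂κ₀| ≤ _
    rw [abs_le] at e2 e3 ⊢
    rw [abs_lt] at e4
    constructor <;> nlinarith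
  have hDD : ∀ R : K, |DD hK G κ₁ (fnl κ) R - DD hK G κ₁ (fnl κ₀) R|
      ≤ G.card * (ε' * (2 * C + 1)) := by
    intro R
    unfold DD
    rw [← Finset.sum_sub_distrib]
    refine (Finset.abs_sum_le_sum_abs _ _).trans ?_
    calc ∑ g ∈ G, |(|fnl κ (cmp g R.1 (hK.isom R.1 R.2)) - ∫ x, g x ∂κ₁|
          - |fnl κ₀ (cmp g R.1 (hK.isom R.1 R.2)) - ∫ x, g x ∂κ₁|)|
        ≤ ∑ _g ∈ G, (ε' * (2 * C + 1)) := by
          apply Finset.sum_le_sum
          intro g hg
          refine (abs_abs_sub_abs_le_abs_sub _ _).trans ?_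
          have := hcl g hg R
          have e : fnl κ (cmp g R.1 (hK.isom R.1 R.2)) - ∫ x, g x ∂κ₁
              - (fnl κ₀ (cmp g R.1 (hK.isom R.1 R.2)) - ∫ x, g x ∂κ₁)
              = fnl κ (cmp g R.1 (hK.isom R.1 R.2)) - fnl κ₀ (cmp g R.1 (hK.isom R.1 R.2)) := by
            ring
          rw [e]
          exact this
      _ = _ := by rw [Finset.sum_const, nsmul_eq_mul]
  have hb : (G.card : ℝ) * (ε' * (2 * C + 1)) < ε := by
    have h1 : (G.card : ℝ) * (ε' * (2 * C + 1)) ≤ n * (ε' * (2 * C + 1)) := by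
      apply mul_le_mul_of_nonneg_right _ (by positivity)
      rw [hn]; linarith
    have h2 : n * (ε' * (2 * C + 1)) = ε / 2 := by
      rw [hε']
      field_simp
    linarith
  rw [Real.dist_eq]
  refine lt_of_le_of_lt ?_ hb
  unfold FF
  rw [abs_le]
  constructor
  · -- lower bound
    have h1 : (⨅ R : K, DD hK G κ₁ (fnl κ₀) R) - G.card * (ε' * (2 * C + 1))
        ≤ ⨅ R : K, DD hK G κ₁ (fnl κ) R := by
      apply le_ciInf
      intro R
      have h2 := ciInf_le (bddBelow_DD hK G κ₁ (fnl κ₀)) R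
      have h3 := (abs_le.1 (hDD R)).1
      linarith
    linarith
  · have h1 : (⨅ R : K, DD hK G κ₁ (fnl κ) R) - G.card * (ε' * (2 * C + 1))
        ≤ ⨅ R : K, DD hK G κ₁ (fnl κ₀) R := by
      apply le_ciInf
      intro R
      have h2 := ciInf_le (bddBelow_DD hK G κ₁ (fnl κ)) R
      have h3 := (abs_le.1 (hDD R)).2
      linarith
    linarith

lemma integral_map_isom (hK : CptGroup K) {R : E →L[ℝ] E} (hR : R ∈ K) (κ : Measure E)
    (g : C_c(E, ℝ)) : ∫ x, g x ∂(κ.map R) = ∫ x, g (R x) ∂κ :=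
  integral_map (f := fun x => g x) R.continuous.aemeasurable g.continuous.aestronglyMeasurable

lemma locFin_map (hK : CptGroup K) {R : E →L[ℝ] E} (hR : R ∈ K) (κ : Measure E)
    [IsLocallyFiniteMeasure κ] : IsLocallyFiniteMeasure (κ.map R) := by
  have h1 : IsFiniteMeasureOnCompacts (κ.map R) := by
    refine ⟨fun L hL => ?_⟩
    obtain ⟨r, hr⟩ := hL.isBounded.subset_closedBall (0 : E)
    refine lt_of_le_of_lt (measure_mono hr) ?_
    rw [Measure.map_apply R.continuous.measurable Metric.isClosed_closedBall.measurableSet]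
    have h2 : R ⁻¹' (Metric.closedBall 0 r) = Metric.closedBall 0 r := by
      ext x
      simp [hK.isom R hR]
    rw [h2]
    exact (isCompact_closedBall (0 : E) r).measure_lt_top
  infer_instance

/-- invariance of the distance -/
lemma FF_map (hK : CptGroup K) (G : Finset C_c(E, ℝ)) (κ₁ κ : Measure E) {S : E →L[ℝ] E}
    (hS : S ∈ K) : FF hK G κ₁ (fnl (κ.map S)) = FF hK G κ₁ (fnl κ) := by
  have hne : Nonempty K := ⟨⟨_, hK.one⟩⟩
  have key : ∀ R : K, DD hK G κ₁ (fnl (κ.map S)) R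
      = DD hK G κ₁ (fnl κ) ⟨R.1.comp S, hK.mul _ R.2 _ hS⟩ := by
    intro R
    unfold DD
    apply Finset.sum_congr rfl
    intro g _
    congr 2
    exact integral_map_isom hK hS κ _
  unfold FF
  apply le_antisymm
  · apply le_ciInf
    intro R
    obtain ⟨S', hS', h1, h2⟩ := hK.inv S hS
    have h3 := ciInf_le (bddBelow_DD hK G κ₁ (fnl (κ.map S))) ⟨R.1.comp S', hK.mul _ R.2 _ hS'⟩
    rw [key] at h3
    refine h3.trans (le_of_eq ?_)
    congr 1
    apply Subtype.ext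
    simp only
    rw [ContinuousLinearMap.comp_assoc, h2, ContinuousLinearMap.comp_id]
  · apply le_ciInf
    intro R
    rw [key]
    exact ciInf_le (bddBelow_DD hK G κ₁ (fnl κ)) _

/-- **Either congruent or continuum many.** -/
theorem continuum_of_not_congruent (hN : Slow N τ₀) (hK : CptGroup K) {κ₁ κ₂ : Measure E}
    (h1 : κ₁ ∈ limitSet N) (h2 : κ₂ ∈ limitSet N) (hne : ∀ R ∈ K, κ₂ ≠ κ₁.map R) :
    ∃ Φ : ℝ → Measure E, (∀ c, Φ c ∈ limitSet N) ∧
      ∀ c d, c ≠ d → ∀ R ∈ K, Φ d ≠ (Φ c).map R := by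
  classical
  have hneK : Nonempty K := ⟨⟨_, hK.one⟩⟩
  have hf1 := h1.1
  have hf2 := h2.1
  -- for each rotation a separating function
  have hsep : ∀ R ∈ K, ∃ g : C_c(E, ℝ), ∫ x, g (R x) ∂κ₂ ≠ ∫ x, g x ∂κ₁ := by
    intro R hR
    by_contra hcon
    push Not at hcon
    have hlf := locFin_map hK hR κ₂
    have h3 : κ₂.map R = κ₁ := by
      apply fnl_injective
      funext g
      change ∫ x, g x ∂(κ₂.map R) = ∫ x, g x ∂κ₁
      rw [integral_map_isom hK hR, hcon g]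
    obtain ⟨S, hS, hS1, hS2⟩ := hK.inv R hR
    apply hne S hS
    rw [← h3, Measure.map_map S.continuous.measurable R.continuous.measurable]
    have : (S : E → E) ∘ R = id := by
      ext x
      have := congrArg (fun L : E →L[ℝ] E => L x) hS2
      simpa using this
    rw [this, Measure.map_id]
  choose! γ hγ using hsep
  -- continuity in the rotation
  have hcontR : ∀ g : C_c(E, ℝ), Continuous fun R : K => ∫ x, g (R.1 x) ∂κ₂ := by
    intro g
    obtain ⟨r, hr⟩ : ∃ r : ℝ, ∀ x, r < ‖x‖ → g x = 0 := by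
      obtain ⟨r, hr⟩ := g.hasCompactSupport.isCompact.isBounded.subset_closedBall 0
      refine ⟨r, fun x hx => image_eq_zero_of_notMem_tsupport fun h => ?_⟩
      have h1 := hr h
      rw [mem_closedBall_zero_iff] at h1
      linarith
    obtain ⟨C, hC⟩ := limitSet_bdd hN r
    rw [Metric.continuous_iff]
    intro S ε hε
    obtain ⟨δ, hδ0, hδ⟩ := exists_delta g hK (ε := ε / (C + 1)) (by positivity)
    refine ⟨δ, hδ0, fun R hR => ?_⟩
    have hRS : ‖R.1 - S.1‖ < δ := by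
      rw [← dist_eq_norm]; exact hR
    rw [Real.dist_eq]
    have h3 := abs_integral_sub_le (μ := κ₂) (g.continuous.comp R.1.continuous)
      (g.continuous.comp S.1.continuous)
      (fun x hx => hr _ (by rw [hK.isom R.1 R.2]; exact hx))
      (fun x hx => hr _ (by rw [hK.isom S.1 S.2]; exact hx))
      (fun x _ => hδ R.1 R.2 S.1 S.2 hRS x) (by positivity) (hC κ₂ h2)
    refine lt_of_le_of_lt h3 ?_
    rw [div_mul_eq_mul_div, div_lt_iff₀ (by positivity)]
    nlinarith [C.coe_nonneg]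
  -- finite subcover
  have hcompK : CompactSpace K := isCompact_iff_compactSpace.1 hK.cpt
  obtain ⟨t, ht⟩ := isCompact_univ.elim_finite_subcover
    (fun R : K => {S : K | ∫ x, γ R.1 (S.1 x) ∂κ₂ ≠ ∫ x, γ R.1 x ∂κ₁})
    (fun R => isOpen_ne_fun (hcontR _) continuous_const)
    (fun S _ => mem_iUnion.2 ⟨S, hγ S.1 S.2⟩)
  set G : Finset C_c(E, ℝ) := t.image (fun R : K => γ R.1) with hG
  -- positivity at κ₂
  have hpos : 0 < FF hK G κ₁ (fnl κ₂) := by
    have hDc : Continuous (DD hK G κ₁ (fnl κ₂)) := by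
      unfold DD
      apply continuous_finsetSum
      intro g _
      apply Continuous.abs
      exact (hcontR g).sub continuous_const
    obtain ⟨R, -, hR⟩ := isCompact_univ.exists_isMinOn univ_nonempty hDc.continuousOn
    have h3 : DD hK G κ₁ (fnl κ₂) R ≤ FF hK G κ₁ (fnl κ₂) :=
      le_ciInf fun S => hR (mem_univ S)
    refine lt_of_lt_of_le ?_ h3
    have h4 := ht (mem_univ R)
    simp only [mem_iUnion] at h4
    obtain ⟨S, hS, hRS⟩ := h4
    have h5 : γ S.1 ∈ G := by rw [hG]; exact Finset.mem_image_of_mem _ hS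
    have h6 : 0 < |fnl κ₂ (cmp (γ S.1) R.1 (hK.isom R.1 R.2)) - ∫ x, γ S.1 x ∂κ₁| := by
      rw [abs_pos, sub_ne_zero]
      exact hRS
    refine lt_of_lt_of_le h6 ?_
    unfold DD
    exact Finset.single_le_sum
      (f := fun g => |fnl κ₂ (cmp g R.1 (hK.isom R.1 R.2)) - ∫ x, g x ∂κ₁|)
      (fun _ _ => abs_nonneg _) h5
  have hzero : FF hK G κ₁ (fnl κ₁) = 0 := by
    apply le_antisymm
    · have h3 := ciInf_le (bddBelow_DD hK G κ₁ (fnl κ₁)) ⟨_, hK.one⟩
      refine h3.trans (le_of_eq ?_)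
      unfold DD
      apply Finset.sum_eq_zero
      intro g _
      rw [abs_eq_zero, sub_eq_zero]
      rfl
    · exact le_ciInf fun R => DD_nonneg _ _ _ _ _
  -- intermediate values
  set δ := FF hK G κ₁ (fnl κ₂) with hδ
  have hpre : IsPreconnected (FF hK G κ₁ '' (fnl '' limitSet N)) :=
    hN.isPreconnected_image.image _ (continuousOn_FF hN hK G κ₁)
  have hIcc : Icc 0 δ ⊆ FF hK G κ₁ '' (fnl '' limitSet N) := by
    apply hpre.Icc_subset
    · exact ⟨_, ⟨κ₁, h1, rfl⟩, hzero⟩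
    · exact ⟨_, ⟨κ₂, h2, rfl⟩, rfl⟩
  have hIcc' : ∀ c : Ioo (0 : ℝ) δ, ∃ κ ∈ limitSet N, FF hK G κ₁ (fnl κ) = c := by
    intro c
    obtain ⟨_, ⟨κ, hκ, rfl⟩, hc⟩ := hIcc ⟨c.2.1.le, c.2.2.le⟩
    exact ⟨κ, hκ, hc⟩
  choose Ψ hΨ1 hΨ2 using hIcc'
  have hcard : Cardinal.mk ℝ = Cardinal.mk (Ioo (0 : ℝ) δ) := by
    rw [Cardinal.mk_real, Cardinal.mk_Ioo_real hpos]
  obtain ⟨e⟩ := Cardinal.eq.1 hcard
  refine ⟨fun c => Ψ (e c), fun c => hΨ1 _, fun c d hcd R hR heq => hcd ?_⟩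
  have h3 : FF hK G κ₁ (fnl (Ψ (e d))) = FF hK G κ₁ (fnl (Ψ (e c))) := by
    have heq' : Ψ (e d) = (Ψ (e c)).map R := heq
    rw [heq', FF_map hK G κ₁ _ hR]
  rw [hΨ2, hΨ2] at h3
  exact (e.injective (Subtype.ext h3)).symm

end

end Vale.Agent.P218.H552
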