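import Vale.Agent.P218.H552.Bridge2

set_option linter.unusedSectionVars false

open MeasureTheory Set Filter Topology Metric
open scoped ENNReal NNReal RealInnerProductSpace

namespace Vale.Agent.P218.H552

open Vale.Agent.P214 (IntegralVarifold proj divAlong IsTestField)

variable {E : Type*} [NormedAddCommGroup E] [InnerProductSpace ℝ E] [FiniteDimensional ℝ E]
  [MeasurableSpace E] [BorelSpace E]

variable {m : ℕ} {μ : ℝ → Measure E} {T : ℝ → E → Submodule ℝ E} {H : ℝ → E → E}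

/-- a function with summable oscillations converges -/
lemma tendsto_of_summable {J : ℝ → ℝ} {σ b : ℕ → ℝ} (hσ : Monotone σ)
    (hσt : Tendsto σ atTop atTop) (hb : Summable b) (hb0 : ∀ k, 0 ≤ b k) {K : ℕ}
    (h : ∀ k, K ≤ k → ∀ τ, σ k ≤ τ → τ ≤ σ (k + 1) → |J τ - J (σ k)| ≤ b k) :
    ∃ l, Tendsto J atTop (𝓝 l) := by
  have hc : CauchySeq (fun k : ℕ => J (σ (K + k))) := by
    refine cauchySeq_of_summable_dist ?_
    have hb' : Summable (fun k => b (K + k)) := by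
      simpa [add_comm] using (summable_nat_add_iff K).2 hb
    refine Summable.of_nonneg_of_le (fun _ => dist_nonneg) (fun k => ?_) hb'
    rw [dist_comm, Real.dist_eq]
    exact h (K + k) (by omega) _ (hσ (by omega)) le_rfl
  obtain ⟨l, hl⟩ := cauchySeq_tendsto_of_complete hc
  refine ⟨l, ?_⟩
  rw [Metric.tendsto_atTop] at hl
  rw [Metric.tendsto_atTop]
  intro ε hε
  obtain ⟨N₁, hN₁⟩ := hl (ε / 2) (half_pos hε)
  have hb0' : Tendsto b atTop (𝓝 0) := hb.tendsto_atTop_zero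
  obtain ⟨N₂, hN₂⟩ := (Metric.tendsto_atTop.1 hb0') (ε / 2) (half_pos hε)
  set N := max (K + N₁) N₂ with hN
  refine ⟨σ N, fun τ hτ => ?_⟩
  obtain ⟨M, hM⟩ := (hσt.eventually_gt_atTop τ).exists
  classical
  -- the greatest index with `σ k ≤ τ`
  set k := Nat.findGreatest (fun k => σ k ≤ τ) M with hk
  have hNM : N ≤ M := by
    by_contra hcon
    push Not at hcon
    have := hσ hcon.le
    linarith
  have hk1 : σ k ≤ τ := Nat.findGreatest_spec (P := fun k => σ k ≤ τ) hNM hτ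
  have hk2 : N ≤ k := Nat.le_findGreatest hNM hτ
  have hkM : k < M := by
    rcases lt_or_ge k M with h1 | h1
    · exact h1
    · have := hσ h1
      linarith
  have hk3 : τ < σ (k + 1) := by
    by_contra hcon
    push Not at hcon
    have := Nat.le_findGreatest (P := fun k => σ k ≤ τ) (show k + 1 ≤ M by omega) hcon
    omega
  have h1 := h k (by omega) τ hk1 hk3.le
  have h2 := hN₁ (k - K) (by omega)
  have h3 := hN₂ k (by omega)
  rw [show K + (k - K) = k by omega] at h2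
  rw [Real.dist_eq, sub_zero, abs_of_nonneg (hb0 k)] at h3
  rw [Real.dist_eq] at h2 ⊢
  calc |J τ - l| = |(J τ - J (σ k)) + (J (σ k) - l)| := by ring_nf
    _ ≤ |J τ - J (σ k)| + |J (σ k) - l| := abs_add_le _ _
    _ < ε := by linarith

section
variable (hB : BF m μ T H) (h0 : μ 0 univ < ⊤)
include hB h0

/-- uniqueness on the level of slices under a Dini condition along some sequence of scales -/
theorem limitSet_subsingleton (x₀ : E) {t₀ : ℝ} (ht : 0 < t₀) {σ : ℕ → ℝ} (hσ : Monotone σ)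
    (hσt : Tendsto σ atTop atTop)
    (hs : Summable fun k => √((σ (k + 1) - σ k) * (th m μ x₀ t₀ (σ k) - th m μ x₀ t₀ (σ (k + 1))))) :
    (limitSet (NN m μ x₀ t₀)).Subsingleton := by
  refine (slow_NN hB h0 x₀ ht).subsingleton_of_tendsto fun φ hφ hφc => ?_
  obtain ⟨g, hg, hgc, hgφ⟩ := exists_unweight hφ hφc
  obtain ⟨A, hA0, hA1, hA2, -⟩ := exists_bounds hg hgc
  obtain ⟨K, hK⟩ := eventually_atTop.1 (hσt.eventually_ge_atTop (tau0 t₀))
  set Q := th m μ x₀ t₀ (tau0 t₀) with hQ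
  have hQ0 : 0 ≤ Q := th_nonneg _ _ _
  -- the summable bound
  set b : ℕ → ℝ := fun k => A * |th m μ x₀ t₀ (σ k) - th m μ x₀ t₀ (σ (k + 1))|
    + A * √(2 * Q) * √((σ (k + 1) - σ k) * (th m μ x₀ t₀ (σ k) - th m μ x₀ t₀ (σ (k + 1)))) with hb
  have hb0 : ∀ k, 0 ≤ b k := fun k => by positivity
  have hsum1 : Summable (fun k => |th m μ x₀ t₀ (σ k) - th m μ x₀ t₀ (σ (k + 1))|) := by
    rw [← summable_nat_add_iff K]
    have e : ∀ k, |th m μ x₀ t₀ (σ (k + K)) - th m μ x₀ t₀ (σ (k + K + 1))|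
        = th m μ x₀ t₀ (σ (k + K)) - th m μ x₀ t₀ (σ (k + K + 1)) := by
      intro k
      apply abs_of_nonneg
      have := th_anti hB h0 x₀ ht (hK (k + K) (by omega)) (hσ (show k + K ≤ k + K + 1 by omega))
      linarith
    simp_rw [e]
    refine summable_of_sum_range_le (c := Q) (fun k => ?_) (fun n => ?_)
    · rw [← e]; positivity
    · have e2 : ∀ n, ∑ i ∈ Finset.range n, (th m μ x₀ t₀ (σ (i + K)) - th m μ x₀ t₀ (σ (i + K + 1)))
          = th m μ x₀ t₀ (σ K) - th m μ x₀ t₀ (σ (n + K)) := by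
        intro n
        induction n with
        | zero => simp
        | succ n ih =>
          rw [Finset.sum_range_succ, ih]
          rw [show n + 1 + K = n + K + 1 by ring]
          ring
      rw [e2]
      have h1 : th m μ x₀ t₀ (σ K) ≤ Q := th_anti hB h0 x₀ ht le_rfl (hK K le_rfl)
      have h2 : 0 ≤ th m μ x₀ t₀ (σ (n + K)) := th_nonneg _ _ _
      linarith
  have hbs : Summable b := (hsum1.mul_left A).add (hs.mul_left _)
  refine tendsto_of_summable hσ hσt hbs hb0 (K := K) fun k hk τ h1 h2 => ?_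
  have h3 := key_tau hB h0 x₀ ht (hK k hk) h1 hA0 hA0 hg hgc hA1 hA2
  simp_rw [hgφ] at h3
  refine h3.trans ?_
  have h4 : th m μ x₀ t₀ (σ k) ≤ Q := th_anti hB h0 x₀ ht le_rfl (hK k hk)
  have h5 : 0 ≤ th m μ x₀ t₀ (σ k) := th_nonneg _ _ _
  have h6 : th m μ x₀ t₀ τ ≤ th m μ x₀ t₀ (σ k) := th_anti hB h0 x₀ ht (hK k hk) h1
  have h7 : th m μ x₀ t₀ (σ (k + 1)) ≤ th m μ x₀ t₀ τ := th_anti hB h0 x₀ ht ((hK k hk).trans h1) h2
  have h8 : th m μ x₀ t₀ (σ k) * (2 * (τ - σ k)) * (th m μ x₀ t₀ (σ k) - th m μ x₀ t₀ τ)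
      ≤ 2 * Q * ((σ (k + 1) - σ k) * (th m μ x₀ t₀ (σ k) - th m μ x₀ t₀ (σ (k + 1)))) := by
    have e1 : th m μ x₀ t₀ (σ k) * (2 * (τ - σ k)) * (th m μ x₀ t₀ (σ k) - th m μ x₀ t₀ τ)
        ≤ Q * (2 * (σ (k + 1) - σ k)) * (th m μ x₀ t₀ (σ k) - th m μ x₀ t₀ (σ (k + 1))) := by
      apply mul_le_mul _ (by linarith) (by linarith) (by
        have : 0 ≤ σ (k + 1) - σ k := by linarith
        positivity)
      apply mul_le_mul h4 (by linarith) (by linarith) hQ0
    refine e1.trans (le_of_eq ?_)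
    ring
  have h9 : √(th m μ x₀ t₀ (σ k) * (2 * (τ - σ k)) * (th m μ x₀ t₀ (σ k) - th m μ x₀ t₀ τ))
      ≤ √(2 * Q) * √((σ (k + 1) - σ k) * (th m μ x₀ t₀ (σ k) - th m μ x₀ t₀ (σ (k + 1)))) := by
    rw [← Real.sqrt_mul (by positivity)]
    exact Real.sqrt_le_sqrt h8
  have h10 : A * (th m μ x₀ t₀ (σ k) - th m μ x₀ t₀ τ)
      ≤ A * |th m μ x₀ t₀ (σ k) - th m μ x₀ t₀ (σ (k + 1))| := by
    apply mul_le_mul_of_nonneg_left _ hA0
    exact le_trans (by linarith) (le_abs_self _)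
  have h11 := mul_le_mul_of_nonneg_left h9 hA0
  simp only [hb]
  linarith

end

end Vale.Agent.P218.H552
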