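import Vale.Agent.P218.H552.IntIdent

open MeasureTheory Set Filter Topology Metric
open scoped ENNReal NNReal RealInnerProductSpace

namespace Vale.Agent.P218.H552

open Vale.Agent.P214 (IntegralVarifold proj divAlong IsTestField)

variable {E : Type*} [NormedAddCommGroup E] [InnerProductSpace ℝ E] [FiniteDimensional ℝ E]
  [MeasurableSpace E] [BorelSpace E]

variable {m : ℕ} {μ : ℝ → Measure E} {T : ℝ → E → Submodule ℝ E} {H : ℝ → E → E}

/-- The right-hand side of Brakke's inequality at time `t` -/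
noncomputable def brakkeRHS (μ : Measure E) (H : E → E) (φ : ℝ → E → ℝ) (t : ℝ) : ℝ :=
  ∫ x, (deriv (fun τ => φ τ x) t + fderiv ℝ (φ t) x (H x) - φ t x * ‖H x‖ ^ 2) ∂μ

/-- what is used of an integral Brakke flow -/
structure BF (m : ℕ) (μ : ℝ → Measure E) (T : ℝ → E → Submodule ℝ E) (H : ℝ → E → E) : Prop where
  fin : ∀ t, 0 ≤ t → IsFiniteMeasureOnCompacts (μ t)
  mc : ∀ᵐ t ∂(volume.restrict (Ici (0 : ℝ))), MC m (μ t) (T t) (H t)
  ineq : ∀ φ : ℝ → E → ℝ, ContDiff ℝ 1 (fun p : ℝ × E => φ p.1 p.2) →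
      HasCompactSupport (fun p : ℝ × E => φ p.1 p.2) → (∀ t x, 0 ≤ φ t x) →
      ∀ a b : ℝ, 0 ≤ a → a ≤ b →
        IntervalIntegrable (fun t => brakkeRHS (μ t) (H t) φ t) volume a b ∧
        ∫ x, φ b x ∂(μ b) - ∫ x, φ a x ∂(μ a) ≤ ∫ t in a..b, brakkeRHS (μ t) (H t) φ t

lemma exists_BF (h : IsIntegralBrakkeFlow m μ) : ∃ T H, BF m μ T H := by
  obtain ⟨h1, V, H, h2, -, h3⟩ := h
  refine ⟨fun t => (V t).tangent, H, fun t ht => ?_, ?_, ?_⟩
  · have := h1 t ht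
    infer_instance
  · rw [ae_restrict_iff' measurableSet_Ici]
    filter_upwards [h2] with t ht ht0
    obtain ⟨e1, e2⟩ := ht ht0
    rw [← e1]
    exact mc_of_isMeanCurvature e2
  · intro φ hφ hφc hφ0 a b ha hab
    have h4 := h3 (fun p => φ p.1 p.2) hφ hφc (fun p => hφ0 _ _) a b ha hab
    have e : ∀ t, ∫ x, brakkeIntegrand (H t) (fun p : ℝ × E => φ p.1 p.2) t x ∂(μ t)
        = brakkeRHS (μ t) (H t) φ t := by
      intro t
      unfold brakkeRHS brakkeIntegrand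
      congr 1
      ext x
      ring
    simp_rw [e] at h4
    exact h4

/-- the inverse scale at time `t` -/
noncomputable def Lam (t₀ t : ℝ) : ℝ := (√(t₀ - t))⁻¹

lemma Lam_pos {t₀ t : ℝ} (h : t < t₀) : 0 < Lam t₀ t := by
  unfold Lam
  have : 0 < √(t₀ - t) := Real.sqrt_pos.2 (by linarith)
  positivity

lemma Lam_sq {t₀ t : ℝ} (h : t < t₀) : Lam t₀ t ^ 2 = (t₀ - t)⁻¹ := by
  unfold Lam
  rw [inv_pow, Real.sq_sqrt (by linarith)]

lemma hasDerivAt_Lam {t₀ t : ℝ} (h : t < t₀) :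
    HasDerivAt (Lam t₀) (1 / 2 * Lam t₀ t ^ 3) t := by
  have h0 : 0 < t₀ - t := by linarith
  have h1 : HasDerivAt (fun s : ℝ => t₀ - s) (-1) t := by
    simpa using (hasDerivAt_id t).const_sub t₀
  have h2 : HasDerivAt (fun s : ℝ => √(t₀ - s)) (-1 / (2 * √(t₀ - t))) t :=
    h1.sqrt h0.ne'
  have h3 : √(t₀ - t) ≠ 0 := (Real.sqrt_pos.2 h0).ne'
  have h4 := h2.inv h3
  refine h4.congr_deriv ?_
  unfold Lam
  field_simp

lemma contDiffAt_Lam {t₀ t : ℝ} (h : t < t₀) : ContDiffAt ℝ 1 (Lam t₀) t := by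
  have h0 : 0 < t₀ - t := by linarith
  unfold Lam
  refine ContDiffAt.inv ?_ (Real.sqrt_pos.2 h0).ne'
  exact (contDiffAt_const.sub contDiffAt_id).sqrt h0.ne'

/-- the self-similar test function (before cutting off in time) -/
noncomputable def phi0 (m : ℕ) (f : E → ℝ) (x₀ : E) (t₀ : ℝ) (t : ℝ) (x : E) : ℝ :=
  Lam t₀ t ^ m * gF f (yy (Lam t₀ t) x₀ x)

omit [FiniteDimensional ℝ E] [MeasurableSpace E] [BorelSpace E] in
lemma hasDerivAt_phi0 {f : E → ℝ} (hf : ContDiff ℝ 1 f) (x₀ : E) {t₀ t : ℝ} (h : t < t₀) (x : E) :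
    HasDerivAt (fun τ => phi0 m f x₀ t₀ τ x)
      (1 / 2 * Lam t₀ t ^ (m + 2) * (m * gF f (yy (Lam t₀ t) x₀ x)
        + fderiv ℝ (gF f) (yy (Lam t₀ t) x₀ x) (yy (Lam t₀ t) x₀ x))) t := by
  have h1 := hasDerivAt_Lam h
  have h2 : HasDerivAt (fun τ => Lam t₀ τ ^ m) (m * Lam t₀ t ^ (m - 1) * (1 / 2 * Lam t₀ t ^ 3)) t :=
    h1.pow m
  have h3 : HasDerivAt (fun τ => yy (Lam t₀ τ) x₀ x) ((1 / 2 * Lam t₀ t ^ 3) • (x - x₀)) t := by
    unfold yy
    exact h1.smul_const _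
  have h4 : HasFDerivAt (gF f) (fderiv ℝ (gF f) (yy (Lam t₀ t) x₀ x)) (yy (Lam t₀ t) x₀ x) :=
    ((contDiff_gF hf).differentiable (by norm_num) _).hasFDerivAt
  have h5 := h4.comp_hasDerivAt t h3
  have h6 := h2.mul h5
  refine h6.congr_deriv ?_
  have e1 : (1 / 2 * Lam t₀ t ^ 3) • (x - x₀) = (1 / 2 * Lam t₀ t ^ 2) • yy (Lam t₀ t) x₀ x := by
    unfold yy
    rw [smul_smul]; congr 1; ring
  rw [e1, map_smul, smul_eq_mul]
  simp only [Function.comp]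
  have e2 : (m : ℝ) * Lam t₀ t ^ (m - 1) * (1 / 2 * Lam t₀ t ^ 3) = 1 / 2 * (m * Lam t₀ t ^ (m + 2)) := by
    rcases Nat.eq_zero_or_pos m with h0 | h0
    · subst h0; simp
    · have : m - 1 + 3 = m + 2 := by omega
      rw [← this, pow_add]; ring
  rw [e2]; ring

omit [FiniteDimensional ℝ E] [MeasurableSpace E] [BorelSpace E] in
lemma fderiv_phi0 {f : E → ℝ} (hf : ContDiff ℝ 1 f) (x₀ : E) (t₀ t : ℝ) (x v : E) :
    fderiv ℝ (phi0 m f x₀ t₀ t) x v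
      = Lam t₀ t ^ (m + 1) * fderiv ℝ (gF f) (yy (Lam t₀ t) x₀ x) v := by
  have h1 : DifferentiableAt ℝ (fun x => gF f (yy (Lam t₀ t) x₀ x)) x :=
    (contDiff_gF_yy hf _ x₀).differentiable (by norm_num) x
  have h2 : fderiv ℝ (phi0 m f x₀ t₀ t) x
      = Lam t₀ t ^ m • fderiv ℝ (fun x => gF f (yy (Lam t₀ t) x₀ x)) x := by
    unfold phi0
    exact fderiv_const_mul h1 _
  rw [h2]
  change Lam t₀ t ^ m * fderiv ℝ (fun x => gF f (yy (Lam t₀ t) x₀ x)) x v = _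
  rw [fderiv_gF_yy hf]; ring

omit [FiniteDimensional ℝ E] [MeasurableSpace E] [BorelSpace E] in
lemma contDiffAt_phi0 {f : E → ℝ} (hf : ContDiff ℝ 1 f) (x₀ : E) {t₀ : ℝ} {p : ℝ × E}
    (h : p.1 < t₀) : ContDiffAt ℝ 1 (fun p : ℝ × E => phi0 m f x₀ t₀ p.1 p.2) p := by
  have h1 : ContDiffAt ℝ 1 (fun p : ℝ × E => Lam t₀ p.1) p :=
    (contDiffAt_Lam h).comp p contDiffAt_fst
  unfold phi0
  refine (h1.pow m).mul ?_
  have h2 : ContDiffAt ℝ 1 (fun p : ℝ × E => yy (Lam t₀ p.1) x₀ p.2) p := by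
    unfold yy
    exact h1.smul (contDiffAt_snd.sub contDiffAt_const)
  exact (contDiff_gF hf).contDiffAt.comp p h2

/-- a time cutoff -/
lemma exists_cutoff {a b t₀ : ℝ} (hab : a ≤ b) (hb : b < t₀) :
    ∃ ψ : ℝ → ℝ, ContDiff ℝ 1 ψ ∧ (∀ t, 0 ≤ ψ t) ∧ (∀ t ∈ Icc a b, ∀ᶠ s in 𝓝 t, ψ s = 1) ∧
      ∃ c d : ℝ, d < t₀ ∧ ∀ t, ψ t ≠ 0 → c ≤ t ∧ t ≤ d := by
  set δ := (t₀ - b) / 4 with hδ
  have hδ0 : 0 < δ := by rw [hδ]; linarith
  let F : ContDiffBump ((a + b) / 2 : ℝ) :=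
    { rIn := (b - a) / 2 + δ, rOut := (b - a) / 2 + 2 * δ,
      rIn_pos := by linarith, rIn_lt_rOut := by linarith }
  refine ⟨F, F.contDiff, fun t => F.nonneg, ?_, a - 2 * δ, b + 2 * δ, ?_, ?_⟩
  · intro t ht
    have : t ∈ ball ((a + b) / 2) F.rIn := by
      rw [mem_ball, Real.dist_eq, abs_lt]
      simp only [F]
      constructor <;> linarith [ht.1, ht.2]
    filter_upwards [isOpen_ball.mem_nhds this] with s hs
    exact F.one_of_mem_closedBall (ball_subset_closedBall hs)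
  · rw [hδ]; linarith
  · intro t ht
    have h1 : t ∈ Function.support F := ht
    rw [F.support_eq, mem_ball, Real.dist_eq, abs_lt] at h1
    simp only [F] at h1
    constructor <;> linarith [h1.1, h1.2]

/-- the rate functional `G_f(t)` -/
noncomputable def GG (m : ℕ) (μ : ℝ → Measure E) (T : ℝ → E → Submodule ℝ E) (H : ℝ → E → E)
    (x₀ : E) (t₀ : ℝ) (f : E → ℝ) (t : ℝ) : ℝ :=
  Lam t₀ t ^ (m + 2) * ∫ x, rhsI (T t) (H t) f (Lam t₀ t) x₀ x ∂(μ t)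

/-- the weighted integral `J_f(t)` -/
noncomputable def JJ (m : ℕ) (μ : ℝ → Measure E) (x₀ : E) (t₀ : ℝ) (f : E → ℝ) (t : ℝ) : ℝ :=
  ∫ x, phi0 m f x₀ t₀ t x ∂(μ t)

/-- **Weighted Brakke inequality.** -/
theorem BF.weighted (hB : BF m μ T H) (x₀ : E) {t₀ : ℝ} {f : E → ℝ} (hf : ContDiff ℝ 1 f)
    (hfc : HasCompactSupport f) (hf0 : ∀ y, 0 ≤ f y) {a b : ℝ} (ha : 0 ≤ a) (hab : a ≤ b)
    (hb : b < t₀) :
    IntervalIntegrable (GG m μ T H x₀ t₀ f) volume a b ∧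
      JJ m μ x₀ t₀ f b - JJ m μ x₀ t₀ f a ≤ ∫ t in a..b, GG m μ T H x₀ t₀ f t := by
  obtain ⟨ψ, hψ, hψ0, hψ1, c, d, hd, hcd⟩ := exists_cutoff hab hb
  obtain ⟨A, hA0, hA1, hA2, hA3⟩ := exists_bounds hf hfc
  set φ : ℝ → E → ℝ := fun t x => ψ t * phi0 m f x₀ t₀ t x with hφ
  have hφC : ContDiff ℝ 1 (fun p : ℝ × E => φ p.1 p.2) := by
    rw [contDiff_iff_contDiffAt]
    intro p
    by_cases hp : p.1 < t₀
    · exact ((hψ.contDiffAt).comp p contDiffAt_fst).mul (contDiffAt_phi0 hf x₀ hp)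
    · have h1 : ∀ᶠ q : ℝ × E in 𝓝 p, φ q.1 q.2 = 0 := by
        have h2 : {q : ℝ × E | d < q.1} ∈ 𝓝 p := by
          apply (isOpen_lt continuous_const continuous_fst).mem_nhds
          simp only [mem_ofPred_eq]
          linarith
        filter_upwards [h2] with q hq
        have h3 : ψ q.1 = 0 := by
          by_contra h4
          have := (hcd _ h4).2
          have h5 : d < q.1 := hq
          linarith
        simp [hφ, h3]
      exact contDiffAt_const.congr_of_eventuallyEq (h1.mono fun q hq => hq)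
  have hφc : HasCompactSupport (fun p : ℝ × E => φ p.1 p.2) := by
    apply HasCompactSupport.intro (K := Icc c d ×ˢ closedBall x₀ (A * √(t₀ - c)))
      (isCompact_Icc.prod (isCompact_closedBall _ _))
    intro p hp
    by_contra h0
    apply hp
    have h1 : ψ p.1 ≠ 0 := left_ne_zero_of_mul h0
    have h2 : phi0 m f x₀ t₀ p.1 p.2 ≠ 0 := right_ne_zero_of_mul h0
    obtain ⟨hc1, hd1⟩ := hcd _ h1
    refine ⟨⟨hc1, hd1⟩, ?_⟩
    have h3 : gF f (yy (Lam t₀ p.1) x₀ p.2) ≠ 0 := right_ne_zero_of_mul h2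
    have h4 : f (yy (Lam t₀ p.1) x₀ p.2) ≠ 0 := left_ne_zero_of_mul h3
    have h5 : ‖yy (Lam t₀ p.1) x₀ p.2‖ ≤ A := by
      by_contra h6
      push Not at h6
      exact h4 (hA3 _ h6).1
    unfold yy at h5
    rw [norm_smul, Real.norm_eq_abs, abs_of_pos (Lam_pos (by linarith))] at h5
    have h7 : 0 < √(t₀ - p.1) := Real.sqrt_pos.2 (by linarith)
    have h8 : √(t₀ - p.1) ≤ √(t₀ - c) := Real.sqrt_le_sqrt (by linarith)
    rw [mem_closedBall, dist_eq_norm]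
    have h9 : ‖p.2 - x₀‖ = √(t₀ - p.1) * (Lam t₀ p.1 * ‖p.2 - x₀‖) := by
      unfold Lam
      field_simp
    rw [h9]
    calc √(t₀ - p.1) * (Lam t₀ p.1 * ‖p.2 - x₀‖) ≤ √(t₀ - c) * A := by
          apply mul_le_mul h8 h5 _ (Real.sqrt_nonneg _)
          have := Lam_pos (t₀ := t₀) (t := p.1) (by linarith)
          positivity
      _ = A * √(t₀ - c) := mul_comm _ _
  have hφ0 : ∀ t x, 0 ≤ φ t x := by
    intro t x
    refine mul_nonneg (hψ0 t) ?_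
    unfold phi0 gF Lam
    have := hf0 (yy (√(t₀ - t))⁻¹ x₀ x)
    positivity
  obtain ⟨hI, hineq⟩ := hB.ineq φ hφC hφc hφ0 a b ha hab
  have key : ∀ᵐ t ∂volume.restrict (uIoc a b), brakkeRHS (μ t) (H t) φ t = GG m μ T H x₀ t₀ f t := by
    rw [uIoc_of_le hab]
    have h1 : ∀ᵐ t ∂volume.restrict (Ioc a b), MC m (μ t) (T t) (H t) :=
      ae_restrict_of_ae_restrict_of_subset (fun t ht => by
        simp only [mem_Ici]; linarith [ht.1]) hB.mc
    have h2 : ∀ᵐ t ∂volume.restrict (Ioc a b), t ∈ Ioc a b := ae_restrict_mem measurableSet_Ioc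
    filter_upwards [h1, h2] with t ht1 ht2
    have htt : t < t₀ := by linarith [ht2.2]
    have h3 := int_identity ht1 (Lam_pos htt) x₀ hf hfc
    unfold GG
    rw [← h3]
    unfold brakkeRHS
    have hψt : ∀ᶠ s in 𝓝 t, ψ s = 1 := hψ1 t ⟨by linarith [ht2.1], ht2.2⟩
    have hψtt : ψ t = 1 := hψt.self_of_nhds
    congr 1
    ext x
    have e1 : deriv (fun τ => φ τ x) t = 1 / 2 * Lam t₀ t ^ (m + 2) * (m * gF f (yy (Lam t₀ t) x₀ x)
        + fderiv ℝ (gF f) (yy (Lam t₀ t) x₀ x) (yy (Lam t₀ t) x₀ x)) := by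
      have h4 : (fun τ => φ τ x) =ᶠ[𝓝 t] fun τ => phi0 m f x₀ t₀ τ x := by
        filter_upwards [hψt] with s hs
        simp [hφ, hs]
      rw [h4.deriv_eq]
      exact (hasDerivAt_phi0 hf x₀ htt x).deriv
    have e2 : φ t = phi0 m f x₀ t₀ t := by
      ext z; simp [hφ, hψtt]
    rw [e1, e2, fderiv_phi0 hf]
    unfold lhsI phi0
    ring
  constructor
  · exact hI.congr_ae (by rw [Filter.EventuallyEq]; exact key)
  · have e1 : ∫ x, φ b x ∂(μ b) = JJ m μ x₀ t₀ f b := by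
      unfold JJ
      congr 1
      ext x
      have := (hψ1 b ⟨hab, le_refl b⟩).self_of_nhds
      simp [hφ, this]
    have e2 : ∫ x, φ a x ∂(μ a) = JJ m μ x₀ t₀ f a := by
      unfold JJ
      congr 1
      ext x
      have := (hψ1 a ⟨le_refl a, hab⟩).self_of_nhds
      simp [hφ, this]
    rw [e1, e2] at hineq
    refine hineq.trans (le_of_eq ?_)
    apply intervalIntegral.integral_congr_ae'
    · rw [uIoc_of_le hab] at key
      exact (ae_restrict_iff' measurableSet_Ioc).1 key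
    · rw [Ioc_eq_empty (by linarith)]
      simp

end Vale.Agent.P218.H552
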