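import Vale.Agent.P218.H552.LinAlg

open MeasureTheory Set Filter Topology Metric
open scoped ENNReal NNReal RealInnerProductSpace

namespace Vale.Agent.P218.H552

open Vale.Agent.P214 (IntegralVarifold proj divAlong IsTestField)

variable {E : Type*} [NormedAddCommGroup E] [InnerProductSpace ℝ E] [FiniteDimensional ℝ E]
  [MeasurableSpace E] [BorelSpace E]

variable {m : ℕ}

/-- what is used of a varifold with mean curvature: a Radon measure, a measurable field of
`m`-planes, and the mean curvature -/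
structure MC (m : ℕ) (μ : Measure E) (T : E → Submodule ℝ E) (H : E → E) : Prop where
  fin : IsFiniteMeasureOnCompacts μ
  Tmeas : AEStronglyMeasurable (fun x => proj (T x)) μ
  dim : ∀ᵐ x ∂μ, Module.finrank ℝ (T x) = m
  meas : AEStronglyMeasurable H μ
  locL2 : ∀ K, IsCompact K → IntegrableOn (fun x => ‖H x‖ ^ 2) K μ
  normal : ∀ᵐ x ∂μ, H x ∈ (T x)ᗮ
  fv : ∀ X : E → E, ContDiff ℝ 1 X → HasCompactSupport X →
    ∫ x, divAlong (T x) X x ∂μ = - ∫ x, ⟪X x, H x⟫ ∂μ

lemma mc_of_isMeanCurvature {V : IntegralVarifold m (univ : Set E)} {H : E → E}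
    (h : IsMeanCurvature V H) : MC m V.weight V.tangent H where
  fin := ⟨fun K hK => V.locFinite K (subset_univ K) hK⟩
  Tmeas := V.tangent_meas
  dim := by
    filter_upwards [V.tangent_spec] with x hx using hx.1
  meas := h.meas
  locL2 := by
    intro K hK
    refine ⟨(h.meas.norm.pow 2).restrict, ?_⟩
    have h1 := h.sq_int K hK
    rw [hasFiniteIntegral_iff_enorm]
    refine lt_of_le_of_lt (le_of_eq ?_) h1
    congr 1
    ext x
    rw [enorm_pow, enorm_norm]
  normal := h.orth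
  fv := fun X hX hXc => h.first_var X ⟨hX, hXc, subset_univ _⟩

omit [BorelSpace E] in
/-- integrability criterion -/
lemma integrable_of_bound {μ : Measure E} [IsFiniteMeasureOnCompacts μ] {H : E → E}
    (hL2 : ∀ K, IsCompact K → IntegrableOn (fun x => ‖H x‖ ^ 2) K μ)
    {u : E → ℝ} (hu : AEStronglyMeasurable u μ) {K : Set E} (hK : IsCompact K)
    (hz : ∀ x, x ∉ K → u x = 0) {C : ℝ}
    (hb : ∀ᵐ x ∂μ, |u x| ≤ C * (1 + ‖H x‖ ^ 2)) : Integrable u μ := by
  have h1 : IntegrableOn u K μ := by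
    have h2 : IntegrableOn (fun x => C * (1 + ‖H x‖ ^ 2)) K μ := by
      apply Integrable.const_mul
      have h3 : IntegrableOn (fun _ : E => (1 : ℝ)) K μ :=
        (locallyIntegrable_const (1 : ℝ)).integrableOn_isCompact hK
      exact h3.add (hL2 K hK)
    apply Integrable.mono' h2 hu.restrict
    filter_upwards [ae_restrict_of_ae hb] with x hx
    simpa using hx
  rwa [integrableOn_iff_integrable_of_support_subset] at h1
  intro x hx
  by_contra hxK
  exact hx (hz x hxK)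

section

variable {μ : Measure E} {T : E → Submodule ℝ E} {H : E → E}

/-- `F(y) = f(y) e^{-|y|²/4}` -/
noncomputable def gF (f : E → ℝ) (y : E) : ℝ := f y * Real.exp (-‖y‖ ^ 2 / 4)

omit [FiniteDimensional ℝ E] [MeasurableSpace E] [BorelSpace E] in
lemma contDiff_gauss : ContDiff ℝ 1 (fun y : E => Real.exp (-‖y‖ ^ 2 / 4)) := by
  have : ContDiff ℝ 1 (fun y : E => ‖y‖ ^ 2) := contDiff_norm_sq ℝ
  fun_prop

omit [FiniteDimensional ℝ E] [MeasurableSpace E] [BorelSpace E] in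
lemma contDiff_gF {f : E → ℝ} (hf : ContDiff ℝ 1 f) : ContDiff ℝ 1 (gF f) :=
  hf.mul contDiff_gauss

omit [FiniteDimensional ℝ E] [MeasurableSpace E] [BorelSpace E] in
lemma hasFDerivAt_gauss (y : E) :
    HasFDerivAt (fun y : E => Real.exp (-‖y‖ ^ 2 / 4))
      ((-(Real.exp (-‖y‖ ^ 2 / 4)) / 2) • innerSL ℝ y) y := by
  have h1 : HasFDerivAt (fun y : E => ‖y‖ ^ 2) (2 • innerSL ℝ y) y := by
    exact (hasStrictFDerivAt_norm_sq y).hasFDerivAt
  have h2 : HasFDerivAt (fun y : E => -‖y‖ ^ 2 / 4) ((-1/4 : ℝ) • (2 • innerSL ℝ y)) y := by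
    have e : (fun y : E => -‖y‖ ^ 2 / 4) = fun y => (-1/4 : ℝ) * ‖y‖ ^ 2 := by
      ext z; ring
    rw [e]
    exact h1.const_mul (-1/4 : ℝ)
  have h3 := h2.exp
  convert h3 using 1
  ext z
  simp
  ring

omit [FiniteDimensional ℝ E] [MeasurableSpace E] [BorelSpace E] in
lemma fderiv_gF {f : E → ℝ} (hf : ContDiff ℝ 1 f) (y z : E) :
    fderiv ℝ (gF f) y z
      = Real.exp (-‖y‖ ^ 2 / 4) * (fderiv ℝ f y z - 1 / 2 * (f y * ⟪y, z⟫)) := by
  have h1 : HasFDerivAt f (fderiv ℝ f y) y :=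
    (hf.differentiable (by norm_num) y).hasFDerivAt
  have h2 := h1.mul (hasFDerivAt_gauss y)
  have h3 : fderiv ℝ (gF f) y = f y • ((-(Real.exp (-‖y‖ ^ 2 / 4)) / 2) • innerSL ℝ y)
      + Real.exp (-‖y‖ ^ 2 / 4) • fderiv ℝ f y := h2.fderiv
  rw [h3]
  simp
  ring

/-- the rescaled position `y = λ (x - x₀)` -/
noncomputable def yy (lam : ℝ) (x₀ x : E) : E := lam • (x - x₀)

/-- the rescaled velocity `h = H / λ + y^⊥ / 2` -/
noncomputable def hh (T : E → Submodule ℝ E) (H : E → E) (lam : ℝ) (x₀ x : E) : E :=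
  lam⁻¹ • H x + (1 / 2 : ℝ) • (yy lam x₀ x - proj (T x) (yy lam x₀ x))

/-- the left-hand side of the weighted identity -/
noncomputable def lhsI (m : ℕ) (H : E → E) (f : E → ℝ) (lam : ℝ) (x₀ x : E) : ℝ :=
  1 / 2 * lam ^ (m + 2) * (m * gF f (yy lam x₀ x) + fderiv ℝ (gF f) (yy lam x₀ x) (yy lam x₀ x))
    + lam ^ (m + 1) * fderiv ℝ (gF f) (yy lam x₀ x) (H x)
    - lam ^ m * gF f (yy lam x₀ x) * ‖H x‖ ^ 2

/-- the right-hand side of the weighted identity -/
noncomputable def rhsI (T : E → Submodule ℝ E) (H : E → E) (f : E → ℝ) (lam : ℝ) (x₀ x : E) : ℝ :=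
  Real.exp (-‖yy lam x₀ x‖ ^ 2 / 4) *
    (fderiv ℝ f (yy lam x₀ x) (hh T H lam x₀ x) - f (yy lam x₀ x) * ‖hh T H lam x₀ x‖ ^ 2)

/-- the vector field used in the first variation -/
noncomputable def XX (f : E → ℝ) (lam : ℝ) (x₀ x : E) : E := gF f (yy lam x₀ x) • (x - x₀)

omit [FiniteDimensional ℝ E] [MeasurableSpace E] [BorelSpace E] in
lemma contDiff_gF_yy {f : E → ℝ} (hf : ContDiff ℝ 1 f) (lam : ℝ) (x₀ : E) :
    ContDiff ℝ 1 (fun x => gF f (yy lam x₀ x)) := by
  have h : ContDiff ℝ 1 (fun x : E => yy lam x₀ x) := by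
    unfold yy
    fun_prop
  exact (contDiff_gF hf).comp h

omit [FiniteDimensional ℝ E] [MeasurableSpace E] [BorelSpace E] in
lemma fderiv_gF_yy {f : E → ℝ} (hf : ContDiff ℝ 1 f) (lam : ℝ) (x₀ x v : E) :
    fderiv ℝ (fun x => gF f (yy lam x₀ x)) x v = lam * fderiv ℝ (gF f) (yy lam x₀ x) v := by
  have h1 : HasFDerivAt (fun x : E => yy lam x₀ x) (lam • ContinuousLinearMap.id ℝ E) x := by
    unfold yy
    exact ((hasFDerivAt_id x).sub_const x₀).const_smul lam
  have h2 : HasFDerivAt (gF f) (fderiv ℝ (gF f) (yy lam x₀ x)) (yy lam x₀ x) :=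
    ((contDiff_gF hf).differentiable (by norm_num) _).hasFDerivAt
  have h3 := h2.comp x h1
  have h4 : fderiv ℝ (fun x => gF f (yy lam x₀ x)) x
      = (fderiv ℝ (gF f) (yy lam x₀ x)).comp (lam • ContinuousLinearMap.id ℝ E) := h3.fderiv
  rw [h4]
  simp

omit [FiniteDimensional ℝ E] [MeasurableSpace E] [BorelSpace E] in
lemma continuous_yy (lam : ℝ) (x₀ : E) : Continuous (fun x : E => yy lam x₀ x) := by
  unfold yy; fun_prop

omit [FiniteDimensional ℝ E] [MeasurableSpace E] [BorelSpace E] in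
/-- the support of `f ∘ yy` is compact -/
lemma hasCompactSupport_comp_yy {F : Type*} [Zero F] {f : E → F} (hfc : HasCompactSupport f)
    {lam : ℝ} (hlam : lam ≠ 0) (x₀ : E) : HasCompactSupport (fun x => f (yy lam x₀ x)) := by
  have h : HasCompactSupport (f ∘ ((Homeomorph.subRight x₀).trans (Homeomorph.smulOfNeZero lam hlam))) :=
    hfc.comp_homeomorph _
  exact h

omit [InnerProductSpace ℝ E] [FiniteDimensional ℝ E] [MeasurableSpace E] [BorelSpace E] in
lemma hasCompactSupport_gF {f : E → ℝ} (hfc : HasCompactSupport f) :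
    HasCompactSupport (gF f) := hfc.mul_right

omit [MeasurableSpace E] [BorelSpace E] in
/-- the pointwise identity -/
lemma pointwise_identity {x₀ x : E} (hd : Module.finrank ℝ (T x) = m)
    (hn : H x ∈ (T x)ᗮ) {lam : ℝ} (hlam : 0 < lam) {f : E → ℝ} (hf : ContDiff ℝ 1 f) :
    lhsI m H f lam x₀ x
      = lam ^ (m + 2) * rhsI T H f lam x₀ x
        + 1 / 2 * lam ^ (m + 2) *
          (divAlong (T x) (XX f lam x₀) x + ⟪XX f lam x₀ x, H x⟫) := by
  have hl : lam ≠ 0 := hlam.ne'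
  have h1 : divAlong (T x) (XX f lam x₀) x
      = gF f (yy lam x₀ x) * m + fderiv ℝ (gF f) (yy lam x₀ x) (proj (T x) (yy lam x₀ x)) := by
    have h := divAlong_smul_sub (T x) (fun x => gF f (yy lam x₀ x)) x₀ x
      ((contDiff_gF_yy hf lam x₀).differentiable (by norm_num) x)
    rw [hd, fderiv_gF_yy hf] at h
    unfold XX
    rw [h]
    congr 1
    rw [← smul_eq_mul, ← map_smul, ← map_smul]
    rfl
  have h2 : ⟪XX f lam x₀ x, H x⟫ = gF f (yy lam x₀ x) * ⟪yy lam x₀ x, lam⁻¹ • H x⟫ := by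
    unfold XX yy
    rw [real_inner_smul_left, real_inner_smul_left, real_inner_smul_right]
    field_simp
  rw [h1, h2]
  unfold lhsI rhsI
  set y := yy lam x₀ x with hy
  set w := y - proj (T x) y with hw
  set k := lam⁻¹ • H x with hk
  have hH : H x = lam • k := by rw [hk, smul_smul, mul_inv_cancel₀ hl, one_smul]
  have hkT : k ∈ (T x)ᗮ := Submodule.smul_mem _ _ hn
  have hwT : w ∈ (T x)ᗮ := sub_proj_mem _ _
  have hPy : proj (T x) y = y - w := by rw [hw]; abel
  have e1 : ⟪proj (T x) y, w⟫ = 0 := inner_proj_of_mem_orthogonal _ _ _ hwT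
  have e2 : ⟪proj (T x) y, k⟫ = 0 := inner_proj_of_mem_orthogonal _ _ _ hkT
  rw [hPy, inner_sub_left] at e1 e2
  have hhh : hh T H lam x₀ x = k + (1 / 2 : ℝ) • w := rfl
  rw [hhh, hH, hPy]
  simp only [fderiv_gF hf, gF]
  generalize Real.exp (-‖y‖ ^ 2 / 4) = a
  simp only [map_add, map_sub, map_smul, smul_eq_mul, inner_add_right, inner_sub_right,
    real_inner_smul_right, norm_smul, ← real_inner_self_eq_norm_sq, inner_add_left,
    real_inner_smul_left, mul_pow, Real.norm_eq_abs, abs_of_pos hlam]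
  rw [real_inner_comm w k]
  have e3 : ⟪y, w⟫ = ⟪w, w⟫ := by linarith
  have e4 : ⟪y, k⟫ = ⟪w, k⟫ := by linarith
  simp only [e3, e4, real_inner_comm k w]
  ring

end

end Vale.Agent.P218.H552
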