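import Vale.Agent.P218.H552.Ident

open MeasureTheory Set Filter Topology Metric
open scoped ENNReal NNReal RealInnerProductSpace

namespace Vale.Agent.P218.H552

open Vale.Agent.P214 (IntegralVarifold proj divAlong IsTestField)

variable {E : Type*} [NormedAddCommGroup E] [InnerProductSpace ℝ E] [FiniteDimensional ℝ E]
  [MeasurableSpace E] [BorelSpace E]

variable {m : ℕ} {μ : Measure E} {T : E → Submodule ℝ E} {H : E → E}

omit [FiniteDimensional ℝ E] [BorelSpace E] in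
lemma aesm_apply {L : E → E →L[ℝ] ℝ} {v : E → E} (hL : AEStronglyMeasurable L μ)
    (hv : AEStronglyMeasurable v μ) : AEStronglyMeasurable (fun x => L x (v x)) μ :=
  isBoundedBilinearMap_apply.continuous.comp_aestronglyMeasurable (hL.prodMk hv)

omit [FiniteDimensional ℝ E] [BorelSpace E] in
lemma aesm_apply' {L : E → E →L[ℝ] E} {v : E → E} (hL : AEStronglyMeasurable L μ)
    (hv : AEStronglyMeasurable v μ) : AEStronglyMeasurable (fun x => L x (v x)) μ :=
  isBoundedBilinearMap_apply.continuous.comp_aestronglyMeasurable (hL.prodMk hv)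

lemma aesm_yy (lam : ℝ) (x₀ : E) : AEStronglyMeasurable (fun x => yy lam x₀ x) μ :=
  (continuous_yy lam x₀).aestronglyMeasurable

lemma aesm_hh (hM : MC m μ T H) (lam : ℝ) (x₀ : E) :
    AEStronglyMeasurable (fun x => hh T H lam x₀ x) μ := by
  unfold hh
  exact (hM.meas.const_smul _).add
    (((aesm_yy lam x₀).sub (aesm_apply' hM.Tmeas (aesm_yy lam x₀))).const_smul _)

lemma aesm_fderiv {f : E → ℝ} (hf : ContDiff ℝ 1 f) (lam : ℝ) (x₀ : E) :
    AEStronglyMeasurable (fun x => fderiv ℝ f (yy lam x₀ x)) μ :=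
  ((hf.continuous_fderiv (by norm_num)).comp (continuous_yy lam x₀)).aestronglyMeasurable

omit [FiniteDimensional ℝ E] in
lemma aesm_f {f : E → ℝ} (hf : Continuous f) (lam : ℝ) (x₀ : E) :
    AEStronglyMeasurable (fun x => f (yy lam x₀ x)) μ :=
  (hf.comp (continuous_yy lam x₀)).aestronglyMeasurable

omit [FiniteDimensional ℝ E] in
lemma aesm_exp (lam : ℝ) (x₀ : E) :
    AEStronglyMeasurable (fun x => Real.exp (-‖yy lam x₀ x‖ ^ 2 / 4)) μ := by
  have : Continuous (fun y : E => Real.exp (-‖y‖ ^ 2 / 4)) := contDiff_gauss.continuous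
  exact (this.comp (continuous_yy lam x₀)).aestronglyMeasurable

omit [MeasurableSpace E] [BorelSpace E] in
lemma norm_hh_sq_le (lam : ℝ) (x₀ x : E) :
    ‖hh T H lam x₀ x‖ ^ 2 ≤ 2 * (lam⁻¹) ^ 2 * ‖H x‖ ^ 2 + 2 * ‖yy lam x₀ x‖ ^ 2 := by
  have h1 : ‖hh T H lam x₀ x‖ ≤ |lam⁻¹| * ‖H x‖ + ‖yy lam x₀ x‖ := by
    unfold hh
    refine (norm_add_le _ _).trans ?_
    rw [norm_smul, norm_smul, Real.norm_eq_abs]
    have h2 : ‖yy lam x₀ x - proj (T x) (yy lam x₀ x)‖ ≤ 2 * ‖yy lam x₀ x‖ := by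
      refine (norm_sub_le _ _).trans ?_
      have h3 : ‖proj (T x) (yy lam x₀ x)‖ ≤ 1 * ‖yy lam x₀ x‖ :=
        (ContinuousLinearMap.le_opNorm _ _).trans
          (mul_le_mul_of_nonneg_right (norm_proj_le _) (norm_nonneg _))
      linarith
    have h4 : ‖(1 / 2 : ℝ)‖ = 1 / 2 := by norm_num
    rw [h4]
    linarith
  have h5 : 0 ≤ |lam⁻¹| * ‖H x‖ := by positivity
  have h6 : (|lam⁻¹| * ‖H x‖ + ‖yy lam x₀ x‖) ^ 2
      ≤ 2 * (|lam⁻¹| * ‖H x‖) ^ 2 + 2 * ‖yy lam x₀ x‖ ^ 2 := by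
    nlinarith [sq_nonneg (|lam⁻¹| * ‖H x‖ - ‖yy lam x₀ x‖)]
  calc ‖hh T H lam x₀ x‖ ^ 2 ≤ (|lam⁻¹| * ‖H x‖ + ‖yy lam x₀ x‖) ^ 2 := by
        gcongr
    _ ≤ _ := h6
    _ = _ := by rw [mul_pow, sq_abs]; ring

omit [FiniteDimensional ℝ E] [MeasurableSpace E] [BorelSpace E] in
lemma exists_bounds {f : E → ℝ} (hf : ContDiff ℝ 1 f) (hfc : HasCompactSupport f) :
    ∃ A : ℝ, 0 ≤ A ∧ (∀ y, |f y| ≤ A) ∧ (∀ y, ‖fderiv ℝ f y‖ ≤ A) ∧
      (∀ y, A < ‖y‖ → f y = 0 ∧ fderiv ℝ f y = 0) := by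
  obtain ⟨A, hA⟩ := hfc.exists_bound_of_continuous hf.continuous
  obtain ⟨B, hB⟩ := (hfc.fderiv (𝕜 := ℝ)).exists_bound_of_continuous (hf.continuous_fderiv (by norm_num))
  obtain ⟨R, hR⟩ := hfc.isCompact.isBounded.subset_closedBall (0 : E)
  refine ⟨max (max A B) R, ?_, ?_, ?_, ?_⟩
  · refine le_max_of_le_left (le_max_of_le_left ?_)
    exact (norm_nonneg _).trans (hA 0)
  · intro y
    exact (hA y).trans ((le_max_left _ _).trans (le_max_left _ _))
  · intro y
    exact (hB y).trans ((le_max_right _ _).trans (le_max_left _ _))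
  · intro y hy
    have h1 : y ∉ tsupport f := by
      intro h
      have := hR h
      simp only [mem_closedBall, dist_zero_right] at this
      have h2 : R ≤ max (max A B) R := le_max_right _ _
      linarith
    refine ⟨image_eq_zero_of_notMem_tsupport h1, ?_⟩
    have h2 : y ∉ tsupport (fderiv ℝ f) := fun h => h1 (tsupport_fderiv_subset ℝ h)
    exact image_eq_zero_of_notMem_tsupport h2

omit [MeasurableSpace E] [BorelSpace E] in
lemma isCompact_preimage_yy {lam : ℝ} (hlam : lam ≠ 0) (x₀ : E) (A : ℝ) :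
    IsCompact {x : E | ‖yy lam x₀ x‖ ≤ A} := by
  have h : {x : E | ‖yy lam x₀ x‖ ≤ A} ⊆ closedBall x₀ (A / |lam|) := by
    intro x hx
    simp only [mem_ofPred_eq, yy, norm_smul, Real.norm_eq_abs] at hx
    rw [mem_closedBall, dist_eq_norm, le_div_iff₀ (abs_pos.2 hlam)]
    linarith
  refine (isCompact_closedBall x₀ (A / |lam|)).of_isClosed_subset ?_ h
  exact isClosed_le (continuous_yy lam x₀).norm continuous_const

lemma integrable_rhsI (hM : MC m μ T H) {lam : ℝ} (hlam : 0 < lam) (x₀ : E) {f : E → ℝ}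
    (hf : ContDiff ℝ 1 f) (hfc : HasCompactSupport f) : Integrable (rhsI T H f lam x₀) μ := by
  have := hM.fin
  obtain ⟨A, hA0, hA1, hA2, hA3⟩ := exists_bounds hf hfc
  have hmeas : AEStronglyMeasurable (rhsI T H f lam x₀) μ := by
    unfold rhsI
    exact (aesm_exp lam x₀).mul ((aesm_apply (aesm_fderiv hf lam x₀) (aesm_hh hM lam x₀)).sub
      ((aesm_f hf.continuous lam x₀).mul ((aesm_hh hM lam x₀).norm.pow 2)))
  refine integrable_of_bound hM.locL2 hmeas (isCompact_preimage_yy hlam.ne' x₀ A) ?_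
    (C := 2 * A * (1 + 2 * (lam⁻¹) ^ 2 + 2 * A ^ 2)) ?_
  · intro x hx
    simp only [mem_ofPred_eq, not_le] at hx
    obtain ⟨h1, h2⟩ := hA3 _ hx
    simp [rhsI, h1, h2]
  · refine Eventually.of_forall fun x => ?_
    by_cases hx : A < ‖yy lam x₀ x‖
    · obtain ⟨h1, h2⟩ := hA3 _ hx
      simp only [rhsI, h1, h2]
      simp only [zero_apply, zero_mul, sub_zero, mul_zero, abs_zero]
      positivity
    · push Not at hx
      unfold rhsI
      set y := yy lam x₀ x
      set h := hh T H lam x₀ x with hh'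
      have e1 : |Real.exp (-‖y‖ ^ 2 / 4)| ≤ 1 := by
        rw [abs_of_pos (Real.exp_pos _), Real.exp_le_one_iff]
        have := sq_nonneg ‖y‖
        linarith
      have e2 : |fderiv ℝ f y h| ≤ A * ‖h‖ := by
        rw [← Real.norm_eq_abs]
        exact (ContinuousLinearMap.le_opNorm _ _).trans
          (mul_le_mul_of_nonneg_right (hA2 y) (norm_nonneg _))
      have e3 : |f y * ‖h‖ ^ 2| ≤ A * ‖h‖ ^ 2 := by
        rw [abs_mul, abs_of_nonneg (sq_nonneg ‖h‖)]
        exact mul_le_mul_of_nonneg_right (hA1 y) (sq_nonneg _)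
      have e4 : ‖h‖ ^ 2 ≤ 2 * (lam⁻¹) ^ 2 * ‖H x‖ ^ 2 + 2 * ‖y‖ ^ 2 := norm_hh_sq_le lam x₀ x
      have e5 : ‖y‖ ^ 2 ≤ A ^ 2 := by
        have := norm_nonneg y
        gcongr
      have e6 : ‖h‖ ≤ 1 + ‖h‖ ^ 2 := by nlinarith [sq_nonneg (‖h‖ - 1), norm_nonneg h]
      have e7 : |fderiv ℝ f y h - f y * ‖h‖ ^ 2| ≤ A * ‖h‖ + A * ‖h‖ ^ 2 :=
        (abs_sub _ _).trans (add_le_add e2 e3)
      have e8 : A * ‖h‖ ≤ A * (1 + ‖h‖ ^ 2) := mul_le_mul_of_nonneg_left e6 hA0
      have e9 : A * ‖h‖ ^ 2 ≤ A * (2 * (lam⁻¹) ^ 2 * ‖H x‖ ^ 2 + 2 * A ^ 2) :=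
        mul_le_mul_of_nonneg_left (e4.trans (by linarith)) hA0
      rw [abs_mul]
      calc |Real.exp (-‖y‖ ^ 2 / 4)| * |fderiv ℝ f y h - f y * ‖h‖ ^ 2|
          ≤ 1 * (A * ‖h‖ + A * ‖h‖ ^ 2) := by
            apply mul_le_mul e1 e7 (abs_nonneg _) zero_le_one
        _ ≤ A + 2 * (A * (2 * (lam⁻¹) ^ 2 * ‖H x‖ ^ 2 + 2 * A ^ 2)) := by nlinarith
        _ ≤ 2 * A * (1 + 2 * (lam⁻¹) ^ 2 + 2 * A ^ 2) * (1 + ‖H x‖ ^ 2) := by
            have p1 : 0 ≤ A * A ^ 2 * ‖H x‖ ^ 2 := by positivity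
            have p2 : 0 ≤ A * (lam⁻¹) ^ 2 := by positivity
            have p3 : 0 ≤ A * ‖H x‖ ^ 2 := by positivity
            nlinarith

omit [FiniteDimensional ℝ E] in
lemma integrable_comp_yy [IsFiniteMeasureOnCompacts μ] {lam : ℝ} (hlam : 0 < lam) (x₀ : E)
    {g : E → ℝ} (hg : Continuous g) (hgc : HasCompactSupport g) :
    Integrable (fun x => g (yy lam x₀ x)) μ :=
  (hg.comp (continuous_yy lam x₀)).integrable_of_hasCompactSupport
    (hasCompactSupport_comp_yy hgc hlam.ne' x₀)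

lemma integrable_div_XX (hM : MC m μ T H) {lam : ℝ} (hlam : 0 < lam) (x₀ : E) {f : E → ℝ}
    (hf : ContDiff ℝ 1 f) (hfc : HasCompactSupport f) :
    Integrable (fun x => divAlong (T x) (XX f lam x₀) x) μ := by
  have := hM.fin
  have hF := contDiff_gF_yy hf lam x₀
  obtain ⟨A, hA0, hA1, hA2, hA3⟩ := exists_bounds hF
    (hasCompactSupport_comp_yy (hasCompactSupport_gF hfc) hlam.ne' x₀)
  have e : (fun x => divAlong (T x) (XX f lam x₀) x) =ᵐ[μ] fun x =>
      gF f (yy lam x₀ x) * m + fderiv ℝ (fun x => gF f (yy lam x₀ x)) x (proj (T x) (x - x₀)) := by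
    filter_upwards [hM.dim] with x hx
    have := divAlong_smul_sub (T x) (fun x => gF f (yy lam x₀ x)) x₀ x
      (hF.differentiable (by norm_num) x)
    rw [hx] at this
    exact this
  rw [integrable_congr e]
  have hm : AEStronglyMeasurable (fun x => gF f (yy lam x₀ x) * m
      + fderiv ℝ (fun x => gF f (yy lam x₀ x)) x (proj (T x) (x - x₀))) μ := by
    refine (hF.continuous.aestronglyMeasurable.mul_const _).add ?_
    refine aesm_apply (hF.continuous_fderiv (by norm_num)).aestronglyMeasurable ?_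
    exact aesm_apply' hM.Tmeas (continuous_id.sub continuous_const).aestronglyMeasurable
  refine integrable_of_bound hM.locL2 hm (isCompact_closedBall (0 : E) A)
    (C := A * m + A * (A + ‖x₀‖)) ?_ ?_
  · intro x hx
    simp only [mem_closedBall, dist_zero_right, not_le] at hx
    obtain ⟨h1, h2⟩ := hA3 _ hx
    rw [h1, h2]; simp
  · refine Eventually.of_forall fun x => ?_
    by_cases hx : A < ‖x‖
    · obtain ⟨h1, h2⟩ := hA3 _ hx
      rw [h1, h2]; simp
      positivity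
    · push Not at hx
      have e1 : |gF f (yy lam x₀ x) * m| ≤ A * m := by
        rw [abs_mul, Nat.abs_cast]
        exact mul_le_mul_of_nonneg_right (hA1 x) (Nat.cast_nonneg _)
      have e2 : |fderiv ℝ (fun x => gF f (yy lam x₀ x)) x (proj (T x) (x - x₀))|
          ≤ A * (A + ‖x₀‖) := by
        rw [← Real.norm_eq_abs]
        refine (ContinuousLinearMap.le_opNorm _ _).trans ?_
        refine mul_le_mul (hA2 x) ?_ (norm_nonneg _) hA0
        refine (ContinuousLinearMap.le_opNorm _ _).trans ?_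
        calc ‖proj (T x)‖ * ‖x - x₀‖ ≤ 1 * ‖x - x₀‖ :=
              mul_le_mul_of_nonneg_right (norm_proj_le _) (norm_nonneg _)
          _ ≤ A + ‖x₀‖ := by
              rw [one_mul]
              exact (norm_sub_le _ _).trans (by linarith)
      have e3 := (abs_add_le (gF f (yy lam x₀ x) * m)
        (fderiv ℝ (fun x => gF f (yy lam x₀ x)) x (proj (T x) (x - x₀)))).trans (add_le_add e1 e2)
      refine e3.trans ?_
      have p : 0 ≤ A * m + A * (A + ‖x₀‖) := by positivity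
      nlinarith [sq_nonneg ‖H x‖]

lemma integrable_inner_XX (hM : MC m μ T H) {lam : ℝ} (hlam : 0 < lam) (x₀ : E) {f : E → ℝ}
    (hf : ContDiff ℝ 1 f) (hfc : HasCompactSupport f) :
    Integrable (fun x => ⟪XX f lam x₀ x, H x⟫) μ := by
  have := hM.fin
  have hX : Continuous (XX f lam x₀) :=
    (contDiff_gF_yy hf lam x₀).continuous.smul (continuous_id.sub continuous_const)
  have hXc : HasCompactSupport (XX f lam x₀) :=
    (hasCompactSupport_comp_yy (hasCompactSupport_gF hfc) hlam.ne' x₀).smul_right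
  obtain ⟨A, hA⟩ := hXc.exists_bound_of_continuous hX
  have hA0 : 0 ≤ A := (norm_nonneg _).trans (hA 0)
  refine integrable_of_bound hM.locL2 (hX.aestronglyMeasurable.inner hM.meas)
    hXc.isCompact (C := A) ?_ ?_
  · intro x hx
    rw [image_eq_zero_of_notMem_tsupport hx, inner_zero_left]
  · refine Eventually.of_forall fun x => ?_
    refine (abs_real_inner_le_norm _ _).trans ?_
    have h1 : ‖XX f lam x₀ x‖ * ‖H x‖ ≤ A * ‖H x‖ :=
      mul_le_mul_of_nonneg_right (hA x) (norm_nonneg _)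
    have h2 : ‖H x‖ ≤ 1 + ‖H x‖ ^ 2 := by nlinarith [sq_nonneg (‖H x‖ - 1), norm_nonneg (H x)]
    exact h1.trans (mul_le_mul_of_nonneg_left h2 hA0)

omit [FiniteDimensional ℝ E] [MeasurableSpace E] [BorelSpace E] in
lemma contDiff_XX {f : E → ℝ} (hf : ContDiff ℝ 1 f) (lam : ℝ) (x₀ : E) :
    ContDiff ℝ 1 (XX f lam x₀) :=
  (contDiff_gF_yy hf lam x₀).smul (contDiff_id.sub contDiff_const)

/-- **The weighted identity.** -/
theorem int_identity (hM : MC m μ T H) {lam : ℝ} (hlam : 0 < lam) (x₀ : E) {f : E → ℝ}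
    (hf : ContDiff ℝ 1 f) (hfc : HasCompactSupport f) :
    ∫ x, lhsI m H f lam x₀ x ∂μ = lam ^ (m + 2) * ∫ x, rhsI T H f lam x₀ x ∂μ := by
  have hXc : HasCompactSupport (XX f lam x₀) :=
    (hasCompactSupport_comp_yy (hasCompactSupport_gF hfc) hlam.ne' x₀).smul_right
  have h1 : ∀ᵐ x ∂μ, lhsI m H f lam x₀ x
      = lam ^ (m + 2) * rhsI T H f lam x₀ x
        + 1 / 2 * lam ^ (m + 2) *
          (divAlong (T x) (XX f lam x₀) x + ⟪XX f lam x₀ x, H x⟫) := by
    filter_upwards [hM.dim, hM.normal] with x hx1 hx2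
    exact pointwise_identity hx1 hx2 hlam hf
  have i1 := integrable_rhsI hM hlam x₀ hf hfc
  have i2 := integrable_div_XX hM hlam x₀ hf hfc
  have i3 := integrable_inner_XX hM hlam x₀ hf hfc
  have i4 : Integrable (fun x => 1 / 2 * lam ^ (m + 2) *
          (divAlong (T x) (XX f lam x₀) x + ⟪XX f lam x₀ x, H x⟫)) μ := (i2.add i3).const_mul _
  rw [integral_congr_ae h1, integral_add (i1.const_mul _) i4,
    integral_const_mul, integral_const_mul, integral_add i2 i3,
    hM.fv _ (contDiff_XX hf lam x₀) hXc]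
  ring

end Vale.Agent.P218.H552
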