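import Vale.Agent.P218.H552.Mass

open MeasureTheory Set Filter Topology Metric
open scoped ENNReal NNReal RealInnerProductSpace

namespace Vale.Agent.P218.H552

open Vale.Agent.P214 (IntegralVarifold proj divAlong IsTestField)

variable {E : Type*} [NormedAddCommGroup E] [InnerProductSpace ℝ E] [FiniteDimensional ℝ E]
  [MeasurableSpace E] [BorelSpace E]

variable {m : ℕ} {μ : ℝ → Measure E} {T : ℝ → E → Submodule ℝ E} {H : ℝ → E → E}

/-- a fixed bump function -/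
noncomputable def bump (E : Type*) [NormedAddCommGroup E] [InnerProductSpace ℝ E]
    [FiniteDimensional ℝ E] : ContDiffBump (0 : E) :=
  { rIn := 1, rOut := 2, rIn_pos := one_pos, rIn_lt_rOut := one_lt_two }

/-- the cutoff `η(y/R)²` -/
noncomputable def chi (R : ℝ) (y : E) : ℝ := (bump E (R⁻¹ • y)) ^ 2

omit [MeasurableSpace E] [BorelSpace E] in
lemma contDiff_chi (R : ℝ) : ContDiff ℝ 1 (chi (E := E) R) := by
  unfold chi
  have h1 : ContDiff ℝ 1 (bump E) := (bump E).contDiff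
  have h2 : ContDiff ℝ 1 (fun y : E => R⁻¹ • y) := contDiff_const_smul _
  exact (h1.comp h2).pow 2

omit [MeasurableSpace E] [BorelSpace E] in
lemma chi_nonneg (R : ℝ) (y : E) : 0 ≤ chi R y := by unfold chi; positivity

omit [MeasurableSpace E] [BorelSpace E] in
lemma chi_le_one (R : ℝ) (y : E) : chi R y ≤ 1 := by
  unfold chi
  exact pow_le_one₀ (bump E).nonneg (bump E).le_one

omit [MeasurableSpace E] [BorelSpace E] in
lemma chi_eq_one {R : ℝ} (hR : 0 < R) {y : E} (hy : ‖y‖ ≤ R) : chi R y = 1 := by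
  unfold chi
  have : R⁻¹ • y ∈ closedBall (0 : E) (bump E).rIn := by
    rw [mem_closedBall, dist_zero_right, norm_smul, norm_inv, Real.norm_eq_abs, abs_of_pos hR]
    change R⁻¹ * ‖y‖ ≤ 1
    rw [inv_mul_le_iff₀ hR]; linarith
  rw [(bump E).one_of_mem_closedBall this]; norm_num

omit [MeasurableSpace E] [BorelSpace E] in
lemma chi_compact {R : ℝ} (hR : 0 < R) : HasCompactSupport (chi (E := E) R) := by
  apply HasCompactSupport.intro (K := closedBall (0 : E) (2 * R)) (isCompact_closedBall _ _)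
  intro y hy
  rw [mem_closedBall, dist_zero_right, not_le] at hy
  unfold chi
  have : bump E (R⁻¹ • y) = 0 := by
    apply (bump E).zero_of_le_dist
    rw [dist_zero_right, norm_smul, norm_inv, Real.norm_eq_abs, abs_of_pos hR]
    change 2 ≤ R⁻¹ * ‖y‖
    rw [le_inv_mul_iff₀ hR]; linarith
  rw [this]; norm_num

omit [MeasurableSpace E] [BorelSpace E] in
/-- gradient bound of the cutoff -/
lemma exists_chi_grad : ∃ C : ℝ, 0 ≤ C ∧ ∀ R : ℝ, 0 < R → ∀ y v : E,
    fderiv ℝ (chi (E := E) R) y v ≤ 2 * (bump E (R⁻¹ • y)) * (C / R) * ‖v‖ := by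
  have h1 : ContDiff ℝ 1 (bump E) := (bump E).contDiff
  obtain ⟨C, hC⟩ := ((bump E).hasCompactSupport.fderiv (𝕜 := ℝ)).exists_bound_of_continuous
    (h1.continuous_fderiv (by norm_num))
  refine ⟨C, (norm_nonneg _).trans (hC 0), fun R hR y v => ?_⟩
  have h2 : HasFDerivAt (fun y : E => R⁻¹ • y) (R⁻¹ • ContinuousLinearMap.id ℝ E) y :=
    (hasFDerivAt_id y).const_smul _
  have h3 : HasFDerivAt (bump E) (fderiv ℝ (bump E) (R⁻¹ • y)) (R⁻¹ • y) :=
    (h1.differentiable (by norm_num) _).hasFDerivAt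
  have h4 := (h3.comp y h2).pow 2
  have h5 : fderiv ℝ (chi (E := E) R) y = _ := h4.fderiv
  rw [h5]
  have h6 : |fderiv ℝ (bump E) (R⁻¹ • y) v| ≤ C * ‖v‖ := by
    rw [← Real.norm_eq_abs]
    exact (ContinuousLinearMap.le_opNorm _ _).trans
      (mul_le_mul_of_nonneg_right (hC _) (norm_nonneg _))
  have h7 : 0 ≤ bump E (R⁻¹ • y) := (bump E).nonneg
  have h8 : fderiv ℝ (bump E) (R⁻¹ • y) v ≤ C * ‖v‖ := (le_abs_self _).trans h6
  simp only [Function.comp, ContinuousLinearMap.comp_smul, ContinuousLinearMap.comp_id]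
  simp
  calc 2 * bump E (R⁻¹ • y) * (R⁻¹ * fderiv ℝ (bump E) (R⁻¹ • y) v)
      ≤ 2 * bump E (R⁻¹ • y) * (R⁻¹ * (C * ‖v‖)) := by
        apply mul_le_mul_of_nonneg_left _ (by positivity)
        exact mul_le_mul_of_nonneg_left h8 (by positivity)
    _ = 2 * bump E (R⁻¹ • y) * (C / R) * ‖v‖ := by ring

omit [MeasurableSpace E] [BorelSpace E] in
lemma fderiv_chi_eq_zero {R : ℝ} (hR : 0 < R) {y : E} (hy : ‖y‖ ≤ R) :
    fderiv ℝ (chi (E := E) R) y = 0 := by
  have h1 : IsLocalMax (chi (E := E) R) y :=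
    Eventually.of_forall fun z => by rw [chi_eq_one hR hy]; exact chi_le_one R z
  exact h1.fderiv_eq_zero

omit [MeasurableSpace E] [BorelSpace E] in
/-- pointwise inequality for the integrand of the rate functional -/
lemma pointwise_key {C : ℝ} (hC : ∀ R : ℝ, 0 < R → ∀ y v : E,
      fderiv ℝ (chi (E := E) R) y v ≤ 2 * (bump E (R⁻¹ • y)) * (C / R) * ‖v‖)
    {A B ε R : ℝ} (hA : 0 ≤ A) (hε : 0 < ε) (hR : 0 < R) {g : E → ℝ}
    (hg : ContDiff ℝ 1 g) (hgA : ∀ y, |g y| ≤ A) (hgB : ∀ y, ‖fderiv ℝ g y‖ ≤ B)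
    (hgR : ∀ y, R < ‖y‖ → g y = 0 ∧ fderiv ℝ g y = 0) (y h : E) :
    fderiv ℝ (fun z => (A + ε) * chi R z + g z) y h - ((A + ε) * chi R y + g y) * ‖h‖ ^ 2
      ≤ (A + ε) * (C / R) ^ 2 + B ^ 2 / (4 * ε) * chi R y := by
  have hder : fderiv ℝ (fun z => (A + ε) * chi R z + g z) y h
      = (A + ε) * fderiv ℝ (chi R) y h + fderiv ℝ g y h := by
    have h1 : HasFDerivAt (chi R) (fderiv ℝ (chi R) y) y :=
      ((contDiff_chi R).differentiable (by norm_num) y).hasFDerivAt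
    have h2 : HasFDerivAt g (fderiv ℝ g y) y := (hg.differentiable (by norm_num) y).hasFDerivAt
    have h3 := (h1.const_mul (A + ε)).add h2
    have h4 : fderiv ℝ (fun z => (A + ε) * chi R z + g z) y = (A + ε) • fderiv ℝ (chi R) y
      + fderiv ℝ g y := h3.fderiv
    rw [h4]; simp
  rw [hder]
  have hAε : 0 < A + ε := by linarith
  rcases le_or_gt ‖y‖ R with hy | hy
  · rw [fderiv_chi_eq_zero hR hy, chi_eq_one hR hy]
    have h1 : fderiv ℝ g y h ≤ B * ‖h‖ :=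
      (le_abs_self _).trans ((Real.norm_eq_abs _).symm.le.trans
        ((ContinuousLinearMap.le_opNorm _ _).trans
          (mul_le_mul_of_nonneg_right (hgB y) (norm_nonneg _))))
    have h2 : 0 ≤ A + g y := by have := (abs_le.1 (hgA y)).1; linarith
    have h3 : 0 ≤ (A + g y) * ‖h‖ ^ 2 := mul_nonneg h2 (sq_nonneg _)
    have h4 : B * ‖h‖ - ε * ‖h‖ ^ 2 ≤ B ^ 2 / (4 * ε) := by
      rw [le_div_iff₀ (by positivity)]
      nlinarith [sq_nonneg (B - 2 * ε * ‖h‖)]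
    have h5 : 0 ≤ (A + ε) * (C / R) ^ 2 := by positivity
    simp only [zero_apply, mul_zero, mul_one, zero_add]
    nlinarith
  · obtain ⟨h1, h2⟩ := hgR y hy
    rw [h1, h2]
    have h3 := hC R hR y h
    have h4 : chi R y = (bump E (R⁻¹ • y)) ^ 2 := rfl
    have h5 : 0 ≤ B ^ 2 / (4 * ε) * chi R y := mul_nonneg (by positivity) (chi_nonneg _ _)
    have h6 : fderiv ℝ (chi R) y h - chi R y * ‖h‖ ^ 2 ≤ (C / R) ^ 2 := by
      rw [h4]
      nlinarith [sq_nonneg (bump E (R⁻¹ • y) * ‖h‖ - C / R)]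
    simp only [zero_apply, add_zero]
    have h7 := mul_le_mul_of_nonneg_left h6 hAε.le
    nlinarith

/-- `Θ(t)`: the unnormalised Gaussian density ratio -/
noncomputable def Th (m : ℕ) (μ : ℝ → Measure E) (x₀ : E) (t₀ t : ℝ) : ℝ :=
  JJ m μ x₀ t₀ (fun _ => 1) t

section
variable (hB : BF m μ T H) (h0 : μ 0 univ < ⊤)
include hB h0

lemma BF.finite {t : ℝ} (ht : 0 ≤ t) : IsFiniteMeasure (μ t) :=
  ⟨(hB.mass_le h0 ht).trans_lt h0⟩

lemma BF.real_le {t : ℝ} (ht : 0 ≤ t) : (μ t).real univ ≤ (μ 0).real univ :=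
  ENNReal.toReal_mono h0.ne (hB.mass_le h0 ht)

omit [FiniteDimensional ℝ E] hB h0 in
lemma integrable_phi0 {ν : Measure E} [IsFiniteMeasure ν] (x₀ : E)
    (t₀ t : ℝ) {f : E → ℝ} (hf : Continuous f) {A : ℝ} (hA : ∀ y, |f y| ≤ A) :
    Integrable (phi0 m f x₀ t₀ t) ν := by
  unfold phi0
  apply Integrable.const_mul
  have h1 : Continuous (gF f) := hf.mul contDiff_gauss.continuous
  apply Integrable.of_bound (h1.comp (continuous_yy _ _)).aestronglyMeasurable A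
  refine Eventually.of_forall fun x => ?_
  change |f _ * Real.exp _| ≤ A
  rw [abs_mul]
  have e1 : |Real.exp (-‖yy (Lam t₀ t) x₀ x‖ ^ 2 / 4)| ≤ 1 := by
    rw [abs_of_pos (Real.exp_pos _), Real.exp_le_one_iff]
    have := sq_nonneg ‖yy (Lam t₀ t) x₀ x‖
    linarith
  calc |f _| * _ ≤ A * 1 := mul_le_mul (hA _) e1 (abs_nonneg _) ((abs_nonneg _).trans (hA 0))
    _ = A := mul_one A

omit hB h0 in
lemma JJ_lin {t : ℝ} (hfin : IsFiniteMeasure (μ t)) (x₀ : E) (t₀ : ℝ) {f g : E → ℝ} (c : ℝ)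
    (hf : Continuous f) {A : ℝ} (hA : ∀ y, |f y| ≤ A) (hg : Continuous g) {B : ℝ}
    (hgB : ∀ y, |g y| ≤ B) :
    JJ m μ x₀ t₀ (fun z => c * f z + g z) t = c * JJ m μ x₀ t₀ f t + JJ m μ x₀ t₀ g t := by
  unfold JJ
  rw [← integral_const_mul, ← integral_add ((integrable_phi0 x₀ t₀ t hf hA).const_mul c)
    (integrable_phi0 x₀ t₀ t hg hgB)]
  congr 1
  ext x
  unfold phi0 gF
  ring

omit hB h0 in
lemma Lam_mono {t₀ t b : ℝ} (ht : t ≤ b) (hb : b < t₀) : Lam t₀ t ≤ Lam t₀ b := by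
  unfold Lam
  apply inv_anti₀ (Real.sqrt_pos.2 (by linarith))
  exact Real.sqrt_le_sqrt (by linarith)

lemma BF.ineq1 (x₀ : E) {t₀ a b : ℝ} (ha : 0 ≤ a) (hab : a ≤ b) (hb : b < t₀) {C : ℝ}
    (hC : ∀ R : ℝ, 0 < R → ∀ y v : E,
      fderiv ℝ (chi (E := E) R) y v ≤ 2 * (bump E (R⁻¹ • y)) * (C / R) * ‖v‖)
    {A B ε R : ℝ} (hA : 0 ≤ A) (hε : 0 < ε) (hR : 0 < R) {g : E → ℝ}
    (hg : ContDiff ℝ 1 g) (hgA : ∀ y, |g y| ≤ A) (hgB : ∀ y, ‖fderiv ℝ g y‖ ≤ B)
    (hgR : ∀ y, R < ‖y‖ → g y = 0 ∧ fderiv ℝ g y = 0) {Θ₁ : ℝ}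
    (hΘ : ∀ t ∈ Icc a b, JJ m μ x₀ t₀ (chi R) t ≤ Θ₁) :
    JJ m μ x₀ t₀ g b - JJ m μ x₀ t₀ g a
      + (A + ε) * (JJ m μ x₀ t₀ (chi R) b - JJ m μ x₀ t₀ (chi R) a)
      ≤ (Lam t₀ b) ^ (m + 2) * ((A + ε) * (C / R) ^ 2 * (μ 0).real univ) * (b - a)
        + B ^ 2 * Θ₁ / (4 * ε) * Real.log ((t₀ - a) / (t₀ - b)) := by
  set f : E → ℝ := fun z => (A + ε) * chi R z + g z with hf
  have hAε : 0 < A + ε := by linarith
  have hfC : ContDiff ℝ 1 f := (contDiff_const.mul (contDiff_chi R)).add hg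
  have hgc : HasCompactSupport g := by
    apply HasCompactSupport.intro (K := closedBall (0 : E) R) (isCompact_closedBall _ _)
    intro y hy
    rw [mem_closedBall, dist_zero_right, not_le] at hy
    exact (hgR y hy).1
  have hfc : HasCompactSupport f := (chi_compact hR).mul_left.add hgc
  have hf0 : ∀ y, 0 ≤ f y := by
    intro y
    simp only [hf]
    rcases le_or_gt ‖y‖ R with hy | hy
    · rw [chi_eq_one hR hy]
      have := (abs_le.1 (hgA y)).1
      linarith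
    · rw [(hgR y hy).1]
      have := chi_nonneg R y
      positivity
  obtain ⟨hI, hineq⟩ := hB.weighted x₀ hfC hfc hf0 ha hab hb
  have hchi1 : ∀ y : E, |chi R y| ≤ 1 := fun y => by
    rw [abs_of_nonneg (chi_nonneg R y)]; exact chi_le_one R y
  have eb : JJ m μ x₀ t₀ f b = (A + ε) * JJ m μ x₀ t₀ (chi R) b + JJ m μ x₀ t₀ g b :=
    JJ_lin (hB.finite h0 (ha.trans hab)) x₀ t₀ _ (contDiff_chi R).continuous hchi1 hg.continuous hgA
  have ea : JJ m μ x₀ t₀ f a = (A + ε) * JJ m μ x₀ t₀ (chi R) a + JJ m μ x₀ t₀ g a :=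
    JJ_lin (hB.finite h0 ha) x₀ t₀ _ (contDiff_chi R).continuous hchi1 hg.continuous hgA
  set K : ℝ := (Lam t₀ b) ^ (m + 2) * ((A + ε) * (C / R) ^ 2 * (μ 0).real univ) with hK
  have hlb : 0 < Lam t₀ b := Lam_pos hb
  have hlog : ∫ t in a..b, (t₀ - t)⁻¹ = Real.log ((t₀ - a) / (t₀ - b)) := by
    rw [intervalIntegral.integral_comp_sub_left (fun x => x⁻¹) t₀,
      integral_inv_of_pos (by linarith) (by linarith)]
  have hcont : ContinuousOn (fun t : ℝ => (t₀ - t)⁻¹) (Icc a b) := by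
    apply ContinuousOn.inv₀ (by fun_prop)
    intro t ht
    have := ht.2
    have : 0 < t₀ - t := by linarith
    exact this.ne'
  have hII : IntervalIntegrable (fun t : ℝ => (t₀ - t)⁻¹) volume a b := by
    apply ContinuousOn.intervalIntegrable
    rwa [uIcc_of_le hab]
  have hI2 : IntervalIntegrable (fun t : ℝ => K + B ^ 2 * Θ₁ / (4 * ε) * (t₀ - t)⁻¹) volume a b :=
    intervalIntegrable_const.add (hII.const_mul _)
  have hle : ∫ t in a..b, GG m μ T H x₀ t₀ f t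
      ≤ ∫ t in a..b, (K + B ^ 2 * Θ₁ / (4 * ε) * (t₀ - t)⁻¹) := by
    apply intervalIntegral.integral_mono_ae_restrict hab hI hI2
    have h1 : ∀ᵐ t ∂volume.restrict (Icc a b), MC m (μ t) (T t) (H t) :=
      ae_restrict_of_ae_restrict_of_subset (fun t ht => by
        simp only [mem_Ici]; linarith [ht.1]) hB.mc
    have h2 : ∀ᵐ t ∂volume.restrict (Icc a b), t ∈ Icc a b := ae_restrict_mem measurableSet_Icc
    filter_upwards [h1, h2] with t ht1 ht2
    have htt : t < t₀ := by linarith [ht2.2]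
    have ht0 : 0 ≤ t := ha.trans ht2.1
    have hfin : IsFiniteMeasure (μ t) := hB.finite h0 ht0
    set l := Lam t₀ t with hl
    have hlp : 0 < l := Lam_pos htt
    have hll : l ≤ Lam t₀ b := Lam_mono ht2.2 hb
    have i1 : Integrable (rhsI (T t) (H t) f l x₀) (μ t) := integrable_rhsI ht1 hlp x₀ hfC hfc
    have i2 : Integrable (fun x => gF (chi R) (yy l x₀ x)) (μ t) := by
      have := integrable_phi0 (ν := μ t) (m := 0) x₀ t₀ t (contDiff_chi R).continuous hchi1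
      unfold phi0 at this
      simpa using this
    have i3 : Integrable (fun x => (A + ε) * (C / R) ^ 2
        + B ^ 2 / (4 * ε) * gF (chi R) (yy l x₀ x)) (μ t) := (integrable_const _).add (i2.const_mul _)
    have e1 : ∫ x, rhsI (T t) (H t) f l x₀ x ∂(μ t) ≤ ∫ x, ((A + ε) * (C / R) ^ 2
        + B ^ 2 / (4 * ε) * gF (chi R) (yy l x₀ x)) ∂(μ t) := by
      apply integral_mono i1 i3
      intro x
      have h3 := pointwise_key hC hA hε hR hg hgA hgB hgR (yy l x₀ x) (hh (T t) (H t) l x₀ x)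
      have h4 : 0 < Real.exp (-‖yy l x₀ x‖ ^ 2 / 4) := Real.exp_pos _
      have h5 : Real.exp (-‖yy l x₀ x‖ ^ 2 / 4) ≤ 1 := by
        rw [Real.exp_le_one_iff]
        have := sq_nonneg ‖yy l x₀ x‖
        linarith
      have h6 := mul_le_mul_of_nonneg_left h3 h4.le
      have h7 : 0 ≤ (A + ε) * (C / R) ^ 2 := by positivity
      change Real.exp (-‖yy l x₀ x‖ ^ 2 / 4) * _ ≤ _
      refine h6.trans ?_
      unfold gF
      nlinarith
    have e2 : ∫ x, ((A + ε) * (C / R) ^ 2 + B ^ 2 / (4 * ε) * gF (chi R) (yy l x₀ x)) ∂(μ t)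
        = (A + ε) * (C / R) ^ 2 * (μ t).real univ
          + B ^ 2 / (4 * ε) * ∫ x, gF (chi R) (yy l x₀ x) ∂(μ t) := by
      rw [integral_add (integrable_const _) (i2.const_mul _), integral_const, smul_eq_mul,
        integral_const_mul]
      ring
    have e3 : l ^ m * ∫ x, gF (chi R) (yy l x₀ x) ∂(μ t) = JJ m μ x₀ t₀ (chi R) t := by
      unfold JJ phi0
      rw [integral_const_mul]
    have e4 : (μ t).real univ ≤ (μ 0).real univ := hB.real_le h0 ht0
    have e5 : l ^ 2 = (t₀ - t)⁻¹ := Lam_sq htt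
    unfold GG
    calc l ^ (m + 2) * ∫ x, rhsI (T t) (H t) f l x₀ x ∂(μ t)
        ≤ l ^ (m + 2) * ((A + ε) * (C / R) ^ 2 * (μ t).real univ
          + B ^ 2 / (4 * ε) * ∫ x, gF (chi R) (yy l x₀ x) ∂(μ t)) := by
          apply mul_le_mul_of_nonneg_left _ (by positivity)
          exact e1.trans (le_of_eq e2)
      _ = l ^ (m + 2) * ((A + ε) * (C / R) ^ 2 * (μ t).real univ)
          + B ^ 2 / (4 * ε) * (l ^ 2 * (l ^ m * ∫ x, gF (chi R) (yy l x₀ x) ∂(μ t))) := by ring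
      _ ≤ K + B ^ 2 * Θ₁ / (4 * ε) * (t₀ - t)⁻¹ := by
          rw [e3, e5]
          apply add_le_add
          · rw [hK]
            gcongr
          · have h8 : (t₀ - t)⁻¹ * JJ m μ x₀ t₀ (chi R) t ≤ (t₀ - t)⁻¹ * Θ₁ := by
              apply mul_le_mul_of_nonneg_left (hΘ t ht2)
              rw [inv_nonneg]; linarith
            calc B ^ 2 / (4 * ε) * ((t₀ - t)⁻¹ * JJ m μ x₀ t₀ (chi R) t)
                ≤ B ^ 2 / (4 * ε) * ((t₀ - t)⁻¹ * Θ₁) :=
                  mul_le_mul_of_nonneg_left h8 (by positivity)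
              _ = _ := by ring
  have hfinal : ∫ t in a..b, (K + B ^ 2 * Θ₁ / (4 * ε) * (t₀ - t)⁻¹)
      = K * (b - a) + B ^ 2 * Θ₁ / (4 * ε) * Real.log ((t₀ - a) / (t₀ - b)) := by
    have h9 : ∫ t in a..b, B ^ 2 * Θ₁ / (4 * ε) * (t₀ - t)⁻¹
        = B ^ 2 * Θ₁ / (4 * ε) * Real.log ((t₀ - a) / (t₀ - b)) := by
      rw [intervalIntegral.integral_const_mul, hlog]
    rw [intervalIntegral.integral_add intervalIntegrable_const (hII.const_mul _),
      h9, intervalIntegral.integral_const, smul_eq_mul]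
    ring
  rw [hfinal] at hle
  have := hineq.trans hle
  rw [eb, ea] at this
  linarith

end

end Vale.Agent.P218.H552
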