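import Vale.Agent.P218.H552.Key

open MeasureTheory Set Filter Topology Metric
open scoped ENNReal NNReal RealInnerProductSpace

namespace Vale.Agent.P218.H552

open Vale.Agent.P214 (IntegralVarifold proj divAlong IsTestField)

variable {E : Type*} [NormedAddCommGroup E] [InnerProductSpace ℝ E] [FiniteDimensional ℝ E]
  [MeasurableSpace E] [BorelSpace E]

variable {m : ℕ} {μ : ℝ → Measure E} {T : ℝ → E → Submodule ℝ E} {H : ℝ → E → E}

omit [FiniteDimensional ℝ E] [MeasurableSpace E] [BorelSpace E] in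
lemma phi0_nonneg {f : E → ℝ} (hf : ∀ y, 0 ≤ f y) (x₀ : E) (t₀ t : ℝ) (x : E) :
    0 ≤ phi0 m f x₀ t₀ t x := by
  unfold phi0 gF Lam
  have := hf (yy (√(t₀ - t))⁻¹ x₀ x)
  positivity

lemma Th_nonneg (x₀ : E) (t₀ t : ℝ) : 0 ≤ Th m μ x₀ t₀ t :=
  integral_nonneg fun x => phi0_nonneg (fun _ => zero_le_one) x₀ t₀ t x

lemma JJ_chi_le {t : ℝ} (hfin : IsFiniteMeasure (μ t)) (x₀ : E) (t₀ R : ℝ) :
    JJ m μ x₀ t₀ (chi R) t ≤ Th m μ x₀ t₀ t := by
  unfold Th JJ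
  apply integral_mono
  · exact integrable_phi0 x₀ t₀ t (contDiff_chi R).continuous (A := 1) (fun y => by
      rw [abs_of_nonneg (chi_nonneg R y)]; exact chi_le_one R y)
  · exact integrable_phi0 x₀ t₀ t continuous_const (A := 1) (fun y => by simp)
  · intro x
    unfold phi0 gF
    have h1 := chi_le_one R (yy (Lam t₀ t) x₀ x)
    have h2 := chi_nonneg R (yy (Lam t₀ t) x₀ x)
    have h3 : 0 ≤ Lam t₀ t := by unfold Lam; positivity
    have h4 := Real.exp_pos (-‖yy (Lam t₀ t) x₀ x‖ ^ 2 / 4)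
    gcongr

lemma tendsto_JJ_chi {t : ℝ} (hfin : IsFiniteMeasure (μ t)) (x₀ : E) (t₀ : ℝ) :
    Tendsto (fun n : ℕ => JJ m μ x₀ t₀ (chi ((n : ℝ) + 1)) t) atTop (𝓝 (Th m μ x₀ t₀ t)) := by
  unfold Th JJ
  refine tendsto_integral_of_dominated_convergence (fun x => phi0 m (fun _ => 1) x₀ t₀ t x)
    (fun n => ?_) ?_ (fun n => ?_) ?_
  · exact (integrable_phi0 x₀ t₀ t (contDiff_chi _).continuous (A := 1) (fun y => by
      rw [abs_of_nonneg (chi_nonneg _ y)]; exact chi_le_one _ y)).aestronglyMeasurable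
  · exact integrable_phi0 x₀ t₀ t continuous_const (A := 1) (fun y => by simp)
  · refine Eventually.of_forall fun x => ?_
    rw [Real.norm_eq_abs, abs_of_nonneg (phi0_nonneg (fun y => chi_nonneg _ y) _ _ _ _)]
    unfold phi0 gF
    have h1 := chi_le_one ((n : ℝ) + 1) (yy (Lam t₀ t) x₀ x)
    have h2 := chi_nonneg ((n : ℝ) + 1) (yy (Lam t₀ t) x₀ x)
    have h3 : 0 ≤ Lam t₀ t := by unfold Lam; positivity
    have h4 := Real.exp_pos (-‖yy (Lam t₀ t) x₀ x‖ ^ 2 / 4)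
    gcongr
  · refine Eventually.of_forall fun x => ?_
    apply tendsto_const_nhds.congr'
    obtain ⟨N, hN⟩ := exists_nat_ge ‖yy (Lam t₀ t) x₀ x‖
    filter_upwards [eventually_ge_atTop N] with n hn
    unfold phi0 gF
    have : (N : ℝ) ≤ n := by exact_mod_cast hn
    rw [chi_eq_one (by positivity) (by linarith)]

lemma tendsto_err (C K b' a' : ℝ) (M : ℝ) :
    Tendsto (fun n : ℕ => K * ((C / ((n : ℝ) + 1)) ^ 2 * M) * (b' - a')) atTop (𝓝 0) := by
  have h1 : Tendsto (fun n : ℕ => C / ((n : ℝ) + 1)) atTop (𝓝 0) :=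
    tendsto_const_nhds.div_atTop
      (tendsto_atTop_add_const_right _ _ tendsto_natCast_atTop_atTop)
  have h2 : Tendsto (fun n : ℕ => K * ((C / ((n : ℝ) + 1)) ^ 2 * M) * (b' - a')) atTop
      (𝓝 (K * (0 ^ 2 * M) * (b' - a'))) :=
    (((h1.pow 2).mul_const M).const_mul K).mul_const _
  simpa using h2

section
variable (hB : BF m μ T H) (h0 : μ 0 univ < ⊤)
include hB h0

/-- **Huisken's monotonicity formula** for the flow -/
theorem BF.Th_anti (x₀ : E) {t₀ a b : ℝ} (ha : 0 ≤ a) (hab : a ≤ b) (hb : b < t₀) :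
    Th m μ x₀ t₀ b ≤ Th m μ x₀ t₀ a := by
  obtain ⟨C, hC0, hC⟩ := exists_chi_grad (E := E)
  have hfa := hB.finite h0 ha
  have hfb := hB.finite h0 (ha.trans hab)
  have key : ∀ n : ℕ, JJ m μ x₀ t₀ (chi ((n : ℝ) + 1)) b - JJ m μ x₀ t₀ (chi ((n : ℝ) + 1)) a
      ≤ (Lam t₀ b) ^ (m + 2) * ((C / ((n : ℝ) + 1)) ^ 2 * (μ 0).real univ) * (b - a) := by
    intro n
    have h1 := hB.ineq1 h0 x₀ ha hab hb hC (A := 0) (B := 0) (ε := 1) (R := (n : ℝ) + 1) le_rfl
      one_pos (by positivity) (g := fun _ => 0) contDiff_const (fun y => by simp)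
      (fun y => by simp) (fun y _ => by simp)
      (Θ₁ := (Lam t₀ b) ^ m * (μ 0).real univ) (fun t ht => by
        have ht0 : 0 ≤ t := ha.trans ht.1
        have hft := hB.finite h0 ht0
        refine (JJ_chi_le hft x₀ t₀ _).trans ?_
        unfold Th JJ
        have h2 : ∀ x, phi0 m (fun _ => 1) x₀ t₀ t x ≤ (Lam t₀ b) ^ m := by
          intro x
          unfold phi0 gF
          have h3 : 0 < Lam t₀ t := Lam_pos (by linarith [ht.2])
          have h4 : Real.exp (-‖yy (Lam t₀ t) x₀ x‖ ^ 2 / 4) ≤ 1 := by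
            rw [Real.exp_le_one_iff]
            have := sq_nonneg ‖yy (Lam t₀ t) x₀ x‖
            linarith
          have h5 : Lam t₀ t ≤ Lam t₀ b := Lam_mono ht.2 hb
          have h6 : Lam t₀ t ^ m ≤ Lam t₀ b ^ m := pow_le_pow_left₀ h3.le h5 m
          have h7 : 0 ≤ Lam t₀ b ^ m := pow_nonneg (Lam_pos hb).le m
          calc Lam t₀ t ^ m * (1 * Real.exp (-‖yy (Lam t₀ t) x₀ x‖ ^ 2 / 4))
              ≤ Lam t₀ b ^ m * (1 * 1) := by gcongr
            _ = Lam t₀ b ^ m := by ring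
        calc ∫ x, phi0 m (fun _ => 1) x₀ t₀ t x ∂(μ t) ≤ ∫ x, (Lam t₀ b) ^ m ∂(μ t) :=
              integral_mono (integrable_phi0 x₀ t₀ t continuous_const (A := 1)
                (fun y => by simp)) (integrable_const _) h2
          _ = (Lam t₀ b) ^ m * (μ t).real univ := by
              rw [integral_const, smul_eq_mul]; ring
          _ ≤ (Lam t₀ b) ^ m * (μ 0).real univ := by
              have := hB.real_le h0 ht0
              have : 0 < Lam t₀ b := Lam_pos hb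
              gcongr)
    have h3 : JJ m μ x₀ t₀ (fun _ => (0 : ℝ)) b = 0 := by
      unfold JJ phi0 gF; simp
    have h4 : JJ m μ x₀ t₀ (fun _ => (0 : ℝ)) a = 0 := by
      unfold JJ phi0 gF; simp
    rw [h3, h4] at h1
    simp only [zero_add, one_mul, sub_zero] at h1
    refine h1.trans (le_of_eq ?_)
    ring
  have l1 := (tendsto_JJ_chi hfb x₀ t₀ (m := m)).sub (tendsto_JJ_chi hfa x₀ t₀ (m := m))
  have l2 := tendsto_err C ((Lam t₀ b) ^ (m + 2)) b a ((μ 0).real univ)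
  have := le_of_tendsto_of_tendsto' l1 l2 key
  linarith

/-- the one-sided key estimate -/
theorem BF.key1 (x₀ : E) {t₀ a b : ℝ} (ha : 0 ≤ a) (hab : a ≤ b) (hb : b < t₀)
    {A B ε : ℝ} (hA : 0 ≤ A) (hε : 0 < ε) {g : E → ℝ}
    (hg : ContDiff ℝ 1 g) (hgc : HasCompactSupport g) (hgA : ∀ y, |g y| ≤ A)
    (hgB : ∀ y, ‖fderiv ℝ g y‖ ≤ B) :
    JJ m μ x₀ t₀ g b - JJ m μ x₀ t₀ g a
      ≤ (A + ε) * (Th m μ x₀ t₀ a - Th m μ x₀ t₀ b)
        + B ^ 2 * Th m μ x₀ t₀ a / (4 * ε) * Real.log ((t₀ - a) / (t₀ - b)) := by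
  obtain ⟨C, hC0, hC⟩ := exists_chi_grad (E := E)
  have hfa := hB.finite h0 ha
  have hfb := hB.finite h0 (ha.trans hab)
  obtain ⟨A', hA'0, -, -, hA'⟩ := exists_bounds hg hgc
  obtain ⟨N, hN⟩ := exists_nat_ge A'
  have key : ∀ n : ℕ, N ≤ n → JJ m μ x₀ t₀ g b - JJ m μ x₀ t₀ g a
      + (A + ε) * (JJ m μ x₀ t₀ (chi ((n : ℝ) + 1)) b - JJ m μ x₀ t₀ (chi ((n : ℝ) + 1)) a)
      ≤ ((Lam t₀ b) ^ (m + 2) * (A + ε)) * ((C / ((n : ℝ) + 1)) ^ 2 * (μ 0).real univ) * (b - a)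
        + B ^ 2 * Th m μ x₀ t₀ a / (4 * ε) * Real.log ((t₀ - a) / (t₀ - b)) := by
    intro n hn
    have hNn : (N : ℝ) ≤ n := by exact_mod_cast hn
    have h1 := hB.ineq1 h0 x₀ ha hab hb hC (R := (n : ℝ) + 1) hA
      hε (by positivity) hg hgA hgB (fun y hy => hA' y (by linarith))
      (Θ₁ := Th m μ x₀ t₀ a) (fun t ht => by
        have ht0 : 0 ≤ t := ha.trans ht.1
        have hft := hB.finite h0 ht0
        refine (JJ_chi_le hft x₀ t₀ _).trans ?_
        exact hB.Th_anti h0 x₀ ha ht.1 (by linarith [ht.2]))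
    refine h1.trans (le_of_eq ?_)
    ring
  have l1 := (tendsto_JJ_chi hfb x₀ t₀ (m := m)).sub (tendsto_JJ_chi hfa x₀ t₀ (m := m))
  have l2 := tendsto_err C ((Lam t₀ b) ^ (m + 2) * (A + ε)) b a ((μ 0).real univ)
  have l3 := (l1.const_mul (A + ε)).const_add (JJ m μ x₀ t₀ g b - JJ m μ x₀ t₀ g a)
  have l4 := l2.add_const
    (B ^ 2 * Th m μ x₀ t₀ a / (4 * ε) * Real.log ((t₀ - a) / (t₀ - b)))
  have := le_of_tendsto_of_tendsto l3 l4 (by
    filter_upwards [eventually_ge_atTop N] with n hn using key n hn)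
  linarith

omit hB h0 in
lemma le_sqrt_of_forall {x D q : ℝ} (hD : 0 ≤ D) (hq : 0 ≤ q)
    (h : ∀ ε : ℝ, 0 < ε → x ≤ ε * D + q / (4 * ε)) : x ≤ √(q * D) := by
  have h1 : ∀ δ : ℝ, 0 < δ → x ≤ √((q + δ) * (D + δ)) := by
    intro δ hδ
    have hD' : 0 < D + δ := by linarith
    have hq' : 0 < q + δ := by linarith
    set s := √((q + δ) * (D + δ)) with hs
    have hs0 : 0 < s := Real.sqrt_pos.2 (by positivity)
    have hs2 : s ^ 2 = (q + δ) * (D + δ) := Real.sq_sqrt (by positivity)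
    have hε : 0 < s / (2 * (D + δ)) := by positivity
    have h2 := h _ hε
    have h3 : s / (2 * (D + δ)) * D ≤ s / 2 := by
      rw [div_mul_eq_mul_div, div_le_div_iff₀ (by positivity) (by positivity)]
      nlinarith
    have h4 : q / (4 * (s / (2 * (D + δ)))) ≤ s / 2 := by
      have e : q / (4 * (s / (2 * (D + δ)))) = q * (D + δ) / (2 * s) := by
        field_simp; ring
      rw [e, div_le_div_iff₀ (by positivity) (by positivity)]
      nlinarith
    linarith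
  have h2 : Tendsto (fun δ : ℝ => √((q + δ) * (D + δ))) (𝓝[>] 0) (𝓝 (√((q + 0) * (D + 0)))) := by
    apply Tendsto.mono_left _ nhdsWithin_le_nhds
    have : Continuous fun δ : ℝ => √((q + δ) * (D + δ)) := by fun_prop
    exact this.tendsto 0
  have h3 := ge_of_tendsto h2 (by
    filter_upwards [self_mem_nhdsWithin] with δ hδ using h1 δ hδ)
  simpa using h3

/-- **The key estimate.** -/
theorem BF.key (x₀ : E) {t₀ a b : ℝ} (ha : 0 ≤ a) (hab : a ≤ b) (hb : b < t₀)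
    {A B : ℝ} (hA : 0 ≤ A) (hB0 : 0 ≤ B) {g : E → ℝ}
    (hg : ContDiff ℝ 1 g) (hgc : HasCompactSupport g) (hgA : ∀ y, |g y| ≤ A)
    (hgB : ∀ y, ‖fderiv ℝ g y‖ ≤ B) :
    |JJ m μ x₀ t₀ g b - JJ m μ x₀ t₀ g a|
      ≤ A * (Th m μ x₀ t₀ a - Th m μ x₀ t₀ b)
        + B * √(Th m μ x₀ t₀ a * Real.log ((t₀ - a) / (t₀ - b))
            * (Th m μ x₀ t₀ a - Th m μ x₀ t₀ b)) := by
  set D := Th m μ x₀ t₀ a - Th m μ x₀ t₀ b with hD
  set L := Real.log ((t₀ - a) / (t₀ - b)) with hL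
  have hD0 : 0 ≤ D := by have := hB.Th_anti h0 x₀ ha hab hb; linarith
  have hL0 : 0 ≤ L := by
    apply Real.log_nonneg
    rw [one_le_div (by linarith)]
    linarith
  have hT0 : 0 ≤ Th m μ x₀ t₀ a := Th_nonneg x₀ t₀ a
  have hBe : B * √(Th m μ x₀ t₀ a * L * D) = √(B ^ 2 * Th m μ x₀ t₀ a * L * D) := by
    rw [show B ^ 2 * Th m μ x₀ t₀ a * L * D = B ^ 2 * (Th m μ x₀ t₀ a * L * D) by ring,
      Real.sqrt_mul (sq_nonneg B), Real.sqrt_sq hB0]
  have one : ∀ g : E → ℝ, ContDiff ℝ 1 g → HasCompactSupport g → (∀ y, |g y| ≤ A) →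
      (∀ y, ‖fderiv ℝ g y‖ ≤ B) →
      JJ m μ x₀ t₀ g b - JJ m μ x₀ t₀ g a ≤ A * D + B * √(Th m μ x₀ t₀ a * L * D) := by
    intro g hg hgc hgA hgB
    rw [hBe]
    have h1 : JJ m μ x₀ t₀ g b - JJ m μ x₀ t₀ g a - A * D
        ≤ √((B ^ 2 * Th m μ x₀ t₀ a * L) * D) := by
      apply le_sqrt_of_forall hD0 (by positivity)
      intro ε hε
      have h2 := hB.key1 h0 x₀ ha hab hb hA hε hg hgc hgA hgB
      have h3 : B ^ 2 * Th m μ x₀ t₀ a / (4 * ε) * L = B ^ 2 * Th m μ x₀ t₀ a * L / (4 * ε) := by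
        ring
      rw [← hD, ← hL, h3] at h2
      linarith
    linarith
  rw [abs_le]
  constructor
  · have h1 := one (fun y => -g y) hg.neg (hgc.comp_left (g := Neg.neg) neg_zero) (fun y => by rw [abs_neg]; exact hgA y)
      (fun y => by rw [fderiv_fun_neg, norm_neg]; exact hgB y)
    have h2 : ∀ t, JJ m μ x₀ t₀ (fun y => -g y) t = - JJ m μ x₀ t₀ g t := by
      intro t
      unfold JJ
      rw [← integral_neg]
      congr 1
      ext x
      unfold phi0 gF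
      ring
    rw [h2, h2] at h1
    linarith
  · exact one g hg hgc hgA hgB

end

end Vale.Agent.P218.H552
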