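import Vale.Agent.P218.Defs

open MeasureTheory Set Filter Topology Metric
open scoped ENNReal NNReal RealInnerProductSpace

namespace Vale.Agent.P218.H552

open Vale.Agent.P214 (IntegralVarifold proj divAlong IsTestField)

variable {E : Type*} [NormedAddCommGroup E] [InnerProductSpace ℝ E] [FiniteDimensional ℝ E]
  [MeasurableSpace E] [BorelSpace E]

omit [MeasurableSpace E] [BorelSpace E] in
lemma trace_proj (T : Submodule ℝ E) :
    LinearMap.trace ℝ E (proj T).toLinearMap = Module.finrank ℝ T := by
  have h : (proj T).toLinearMap = T.starProjection.toLinearMap := rfl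
  rw [h]
  have h2 : T.starProjection.toLinearMap = T.subtype ∘ₗ (T.orthogonalProjectionOnto : E →L[ℝ] T).toLinearMap := by
    ext x
    rfl
  rw [h2, LinearMap.trace_comp_comm']
  have h3 : (T.orthogonalProjectionOnto : E →L[ℝ] T).toLinearMap ∘ₗ T.subtype = LinearMap.id := by
    ext x
    simp
  rw [h3, LinearMap.trace_id]

omit [MeasurableSpace E] [BorelSpace E] in
lemma trace_comp_smulRight (P : E →L[ℝ] E) (l : E →L[ℝ] ℝ) (w : E) :
    LinearMap.trace ℝ E (P.comp (l.smulRight w)).toLinearMap = l (P w) := by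
  have h : (P.comp (l.smulRight w)).toLinearMap = l.toLinearMap.smulRight (P w) := by
    ext x
    simp
  rw [h]
  simp [LinearMap.trace_smulRight]

omit [MeasurableSpace E] [BorelSpace E] in
lemma inner_proj_left (T : Submodule ℝ E) (x y : E) : ⟪proj T x, y⟫ = ⟪x, proj T y⟫ :=
  Submodule.inner_starProjection_left_eq_right T x y

omit [MeasurableSpace E] [BorelSpace E] in
lemma proj_mem (T : Submodule ℝ E) (x : E) : proj T x ∈ T := by
  unfold proj
  rw [Submodule.starProjection_apply]
  exact SetLike.coe_mem _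

omit [MeasurableSpace E] [BorelSpace E] in
lemma inner_proj_of_mem_orthogonal (T : Submodule ℝ E) (x y : E) (hy : y ∈ Tᗮ) :
    ⟪proj T x, y⟫ = 0 :=
  (Submodule.mem_orthogonal T y).1 hy _ (proj_mem T x)

omit [MeasurableSpace E] [BorelSpace E] in
lemma sub_proj_mem (T : Submodule ℝ E) (x : E) : x - proj T x ∈ Tᗮ := by
  unfold proj
  exact Submodule.sub_starProjection_mem_orthogonal x

omit [MeasurableSpace E] [BorelSpace E] in
lemma norm_proj_le (T : Submodule ℝ E) : ‖proj T‖ ≤ 1 := by
  unfold proj
  exact Submodule.starProjection_norm_le T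

omit [MeasurableSpace E] [BorelSpace E] in
/-- divergence of `F • (x - x₀)` -/
lemma divAlong_smul_sub (T : Submodule ℝ E) (F : E → ℝ) (x₀ x : E)
    (hF : DifferentiableAt ℝ F x) :
    divAlong T (fun z => F z • (z - x₀)) x
      = F x * Module.finrank ℝ T + fderiv ℝ F x (proj T (x - x₀)) := by
  unfold divAlong
  have h1 : HasFDerivAt (fun z => F z • (z - x₀))
      (F x • (ContinuousLinearMap.id ℝ E) + (fderiv ℝ F x).smulRight (x - x₀)) x := by
    have h2 : HasFDerivAt (fun z : E => z - x₀) (ContinuousLinearMap.id ℝ E) x :=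
      (hasFDerivAt_id x).sub_const x₀
    exact hF.hasFDerivAt.smul h2
  rw [h1.fderiv, ContinuousLinearMap.comp_add]
  have h3 : ((proj T).comp (F x • ContinuousLinearMap.id ℝ E)
      + (proj T).comp ((fderiv ℝ F x).smulRight (x - x₀))).toLinearMap
      = F x • (proj T).toLinearMap
        + ((proj T).comp ((fderiv ℝ F x).smulRight (x - x₀))).toLinearMap := by
    ext z
    simp
  rw [h3, map_add, map_smul, trace_proj, trace_comp_smulRight, smul_eq_mul]

end Vale.Agent.P218.H552
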