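import Vale.Agent.P218.H552.Flow

open MeasureTheory Set Filter Topology Metric
open scoped ENNReal NNReal RealInnerProductSpace

namespace Vale.Agent.P218.H552

open Vale.Agent.P214 (IntegralVarifold proj divAlong IsTestField)

variable {E : Type*} [NormedAddCommGroup E] [InnerProductSpace ℝ E] [FiniteDimensional ℝ E]
  [MeasurableSpace E] [BorelSpace E]

variable {m : ℕ} {μ : ℝ → Measure E} {T : ℝ → E → Submodule ℝ E} {H : ℝ → E → E}

/-- `s ↦ (s_+)^n` -/
noncomputable def pp (n : ℕ) (s : ℝ) : ℝ := (max s 0) ^ n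

lemma pp_nonneg (n : ℕ) (s : ℝ) : 0 ≤ pp n s := by unfold pp; positivity

lemma hasDerivAt_pp (n : ℕ) (s : ℝ) : HasDerivAt (pp (n + 2)) ((n + 2 : ℕ) * pp (n + 1) s) s := by
  rcases lt_trichotomy s 0 with h | h | h
  · have h1 : pp (n + 2) =ᶠ[𝓝 s] fun _ => 0 := by
      filter_upwards [isOpen_Iio.mem_nhds h] with x hx
      simp [pp, max_eq_right (le_of_lt (mem_Iio.1 hx))]
    have h2 : ((n + 2 : ℕ) : ℝ) * pp (n + 1) s = 0 := by
      simp [pp, max_eq_right h.le]
    rw [h2]
    exact (hasDerivAt_const s (0 : ℝ)).congr_of_eventuallyEq h1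
  · subst h
    have h2 : ((n + 2 : ℕ) : ℝ) * pp (n + 1) 0 = 0 := by simp [pp]
    rw [h2, hasDerivAt_iff_isLittleO]
    have h3 : (fun x' : ℝ => pp (n + 2) x' - pp (n + 2) 0 - (x' - 0) • (0 : ℝ))
        = fun x' => pp (n + 2) x' := by
      ext x; simp [pp]
    rw [h3]
    have h4 : (fun x : ℝ => pp (n + 2) x) =O[𝓝 0] fun x : ℝ => x ^ 2 := by
      refine Asymptotics.IsBigO.of_bound 1 ?_
      have : ∀ᶠ x : ℝ in 𝓝 0, |x| < 1 := by
        have := (continuous_abs.tendsto (0 : ℝ))
        rw [abs_zero] at this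
        exact this.eventually (gt_mem_nhds one_pos)
      filter_upwards [this] with x hx
      have e1 : max x 0 ≤ |x| := max_le (le_abs_self x) (abs_nonneg x)
      have e2 : 0 ≤ max x 0 := le_max_right _ _
      rw [Real.norm_eq_abs, Real.norm_eq_abs, abs_of_nonneg (pp_nonneg _ _), one_mul,
        abs_of_nonneg (sq_nonneg x), ← sq_abs x]
      unfold pp
      calc max x 0 ^ (n + 2) = max x 0 ^ n * max x 0 ^ 2 := pow_add _ _ _
        _ ≤ 1 * |x| ^ 2 := by
          apply mul_le_mul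
          · exact pow_le_one₀ e2 (e1.trans hx.le)
          · gcongr
          · positivity
          · norm_num
        _ = |x| ^ 2 := one_mul _
    refine h4.trans_isLittleO ?_
    have := (Asymptotics.isLittleO_pow_id (𝕜 := ℝ) (n := 2) (by norm_num))
    simpa using this
  · have h1 : pp (n + 2) =ᶠ[𝓝 s] fun x => x ^ (n + 2) := by
      filter_upwards [isOpen_Ioi.mem_nhds h] with x hx
      simp [pp, max_eq_left (le_of_lt (mem_Ioi.1 hx))]
    have h2 : ((n + 2 : ℕ) : ℝ) * pp (n + 1) s = ((n + 2 : ℕ) : ℝ) * s ^ (n + 1) := by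
      simp [pp, max_eq_left h.le]
    rw [h2]
    exact (hasDerivAt_pow (n + 2) s).congr_of_eventuallyEq h1

lemma continuous_pp (n : ℕ) : Continuous (pp n) := by unfold pp; fun_prop

lemma contDiff_pp (n : ℕ) : ContDiff ℝ 1 (pp (n + 2)) := by
  rw [contDiff_one_iff_deriv]
  refine ⟨fun s => (hasDerivAt_pp n s).differentiableAt, ?_⟩
  have : deriv (pp (n + 2)) = fun s => ((n + 2 : ℕ) : ℝ) * pp (n + 1) s := by
    ext s; exact (hasDerivAt_pp n s).deriv
  rw [this]
  exact continuous_const.mul (continuous_pp _)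

section
variable {μ : Measure E} {T : E → Submodule ℝ E} {H : E → E}

lemma integrable_div_smul (hM : MC m μ T H) {F : E → ℝ} (hF : ContDiff ℝ 1 F)
    (hFc : HasCompactSupport F) (x₀ : E) :
    Integrable (fun x => divAlong (T x) (fun z => F z • (z - x₀)) x) μ := by
  have := hM.fin
  obtain ⟨A, hA0, hA1, hA2, hA3⟩ := exists_bounds hF hFc
  have e : (fun x => divAlong (T x) (fun z => F z • (z - x₀)) x) =ᵐ[μ] fun x =>
      F x * m + fderiv ℝ F x (proj (T x) (x - x₀)) := by
    filter_upwards [hM.dim] with x hx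
    have := divAlong_smul_sub (T x) F x₀ x (hF.differentiable (by norm_num) x)
    rw [hx] at this
    exact this
  rw [integrable_congr e]
  have hm : AEStronglyMeasurable (fun x => F x * m + fderiv ℝ F x (proj (T x) (x - x₀))) μ := by
    refine (hF.continuous.aestronglyMeasurable.mul_const _).add ?_
    refine aesm_apply (hF.continuous_fderiv (by norm_num)).aestronglyMeasurable ?_
    exact aesm_apply' hM.Tmeas (continuous_id.sub continuous_const).aestronglyMeasurable
  refine integrable_of_bound hM.locL2 hm (isCompact_closedBall (0 : E) A)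
    (C := A * m + A * (A + ‖x₀‖)) ?_ ?_
  · intro x hx
    simp only [mem_closedBall, dist_zero_right, not_le] at hx
    obtain ⟨h1, h2⟩ := hA3 _ hx
    rw [h1, h2]; simp
  · refine Eventually.of_forall fun x => ?_
    by_cases hx : A < ‖x‖
    · obtain ⟨h1, h2⟩ := hA3 _ hx
      rw [h1, h2]; simp
      positivity
    · push Not at hx
      have e1 : |F x * m| ≤ A * m := by
        rw [abs_mul, Nat.abs_cast]
        exact mul_le_mul_of_nonneg_right (hA1 x) (Nat.cast_nonneg _)
      have e2 : |fderiv ℝ F x (proj (T x) (x - x₀))| ≤ A * (A + ‖x₀‖) := by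
        rw [← Real.norm_eq_abs]
        refine (ContinuousLinearMap.le_opNorm _ _).trans ?_
        refine mul_le_mul (hA2 x) ?_ (norm_nonneg _) hA0
        refine (ContinuousLinearMap.le_opNorm _ _).trans ?_
        calc ‖proj (T x)‖ * ‖x - x₀‖ ≤ 1 * ‖x - x₀‖ :=
              mul_le_mul_of_nonneg_right (norm_proj_le _) (norm_nonneg _)
          _ ≤ A + ‖x₀‖ := by
              rw [one_mul]
              exact (norm_sub_le _ _).trans (by linarith)
      have e3 := (abs_add_le (F x * m)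
        (fderiv ℝ F x (proj (T x) (x - x₀)))).trans (add_le_add e1 e2)
      refine e3.trans ?_
      have p : 0 ≤ A * m + A * (A + ‖x₀‖) := by positivity
      nlinarith [sq_nonneg ‖H x‖]

lemma integrable_inner_of_cpt (hM : MC m μ T H) {X : E → E} (hX : Continuous X)
    (hXc : HasCompactSupport X) : Integrable (fun x => ⟪X x, H x⟫) μ := by
  have := hM.fin
  obtain ⟨A, hA⟩ := hXc.exists_bound_of_continuous hX
  have hA0 : 0 ≤ A := (norm_nonneg _).trans (hA 0)
  refine integrable_of_bound hM.locL2 (hX.aestronglyMeasurable.inner hM.meas)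
    hXc.isCompact (C := A) ?_ ?_
  · intro x hx
    rw [image_eq_zero_of_notMem_tsupport hx, inner_zero_left]
  · refine Eventually.of_forall fun x => ?_
    refine (abs_real_inner_le_norm _ _).trans ?_
    have h1 : ‖X x‖ * ‖H x‖ ≤ A * ‖H x‖ :=
      mul_le_mul_of_nonneg_right (hA x) (norm_nonneg _)
    have h2 : ‖H x‖ ≤ 1 + ‖H x‖ ^ 2 := by nlinarith [sq_nonneg (‖H x‖ - 1), norm_nonneg (H x)]
    exact h1.trans (mul_le_mul_of_nonneg_left h2 hA0)

lemma integrable_mul_H_sq (hM : MC m μ T H) {g : E → ℝ} (hg : Continuous g)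
    (hgc : HasCompactSupport g) : Integrable (fun x => g x * ‖H x‖ ^ 2) μ := by
  have := hM.fin
  obtain ⟨A, hA⟩ := hgc.exists_bound_of_continuous hg
  have hA0 : 0 ≤ A := (norm_nonneg _).trans (hA 0)
  refine integrable_of_bound hM.locL2 (hg.aestronglyMeasurable.mul (hM.meas.norm.pow 2))
    hgc.isCompact (C := A) ?_ ?_
  · intro x hx
    rw [image_eq_zero_of_notMem_tsupport hx, zero_mul]
  · refine Eventually.of_forall fun x => ?_
    rw [abs_mul, abs_of_nonneg (sq_nonneg ‖H x‖)]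
    have h1 := hA x
    rw [Real.norm_eq_abs] at h1
    nlinarith [sq_nonneg ‖H x‖, mul_le_mul_of_nonneg_right h1 (sq_nonneg ‖H x‖)]

/-- `u = ρ - ‖x‖²` -/
noncomputable def uu (ρ : ℝ) (x : E) : ℝ := ρ - ‖x‖ ^ 2

omit [FiniteDimensional ℝ E] [MeasurableSpace E] [BorelSpace E] in
lemma hasFDerivAt_uu (ρ : ℝ) (x : E) :
    HasFDerivAt (uu ρ : E → ℝ) (-(2 • innerSL ℝ x)) x := by
  have h1 : HasFDerivAt (fun y : E => ‖y‖ ^ 2) (2 • innerSL ℝ x) x :=
    (hasStrictFDerivAt_norm_sq x).hasFDerivAt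
  exact h1.const_sub ρ

omit [FiniteDimensional ℝ E] [MeasurableSpace E] [BorelSpace E] in
lemma contDiff_uu (ρ : ℝ) : ContDiff ℝ 1 (uu ρ : E → ℝ) := by
  have : ContDiff ℝ 1 (fun y : E => ‖y‖ ^ 2) := contDiff_norm_sq ℝ
  exact contDiff_const.sub this

omit [FiniteDimensional ℝ E] [MeasurableSpace E] [BorelSpace E] in
lemma contDiff_pp_uu (n : ℕ) (ρ : ℝ) : ContDiff ℝ 1 (fun x : E => pp (n + 2) (uu ρ x)) :=
  (contDiff_pp n).comp (contDiff_uu ρ)

omit [FiniteDimensional ℝ E] [MeasurableSpace E] [BorelSpace E] in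
lemma fderiv_pp_uu (n : ℕ) (ρ : ℝ) (x v : E) :
    fderiv ℝ (fun x : E => pp (n + 2) (uu ρ x)) x v
      = ((n + 2 : ℕ) : ℝ) * pp (n + 1) (uu ρ x) * (-(2 * ⟪x, v⟫)) := by
  have h := (hasDerivAt_pp n (uu ρ x)).comp_hasFDerivAt x (hasFDerivAt_uu ρ x)
  have h2 : fderiv ℝ (fun x : E => pp (n + 2) (uu ρ x)) x
    = (((n + 2 : ℕ) : ℝ) * pp (n + 1) (uu ρ x)) • (-(2 • innerSL ℝ x)) := h.fderiv
  rw [h2]
  simp

omit [InnerProductSpace ℝ E] [MeasurableSpace E] [BorelSpace E] in
lemma hasCompactSupport_pp_uu [NormedSpace ℝ E] [FiniteDimensional ℝ E] (n : ℕ) (hn : 0 < n) (ρ : ℝ) :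
    HasCompactSupport (fun x : E => pp n (uu ρ x)) := by
  apply HasCompactSupport.intro (K := closedBall (0 : E) (√ρ)) (isCompact_closedBall _ _)
  intro x hx
  simp only [mem_closedBall, dist_zero_right, not_le] at hx
  have h1 : uu ρ x < 0 := by
    unfold uu
    by_cases h : 0 ≤ ρ
    · have h2 := Real.sq_sqrt h
      have h3 := Real.sqrt_nonneg ρ
      nlinarith
    · push Not at h
      nlinarith [sq_nonneg ‖x‖]
  simp [pp, max_eq_right h1.le, hn.ne']

/-- the barrier inequality at one time -/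
lemma barrier_le (hM : MC m μ T H) (ρ : ℝ) :
    ∫ x, (-(6 * m) * pp 2 (uu ρ x) + fderiv ℝ (fun x : E => pp 3 (uu ρ x)) x (H x)
      - pp 3 (uu ρ x) * ‖H x‖ ^ 2) ∂μ ≤ 0 := by
  have := hM.fin
  set F : E → ℝ := fun x => -6 * pp 2 (uu ρ x) with hF
  have hFC : ContDiff ℝ 1 F := contDiff_const.mul (contDiff_pp_uu 0 ρ)
  have hFc : HasCompactSupport F := (hasCompactSupport_pp_uu 2 (by norm_num) ρ).mul_left
  set X : E → E := fun x => F x • (x - 0) with hX
  have hXC : ContDiff ℝ 1 X := hFC.smul (contDiff_id.sub contDiff_const)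
  have hXc : HasCompactSupport X := hFc.smul_right
  have i1 : Integrable (fun x => -(6 * m) * pp 2 (uu ρ x)) μ := by
    refine Continuous.integrable_of_hasCompactSupport ?_ ?_
    · exact continuous_const.mul ((contDiff_pp_uu 0 ρ).continuous)
    · exact (hasCompactSupport_pp_uu 2 (by norm_num) ρ).mul_left
  have i2 : Integrable (fun x => ⟪X x, H x⟫) μ := integrable_inner_of_cpt hM hXC.continuous hXc
  have i3 : Integrable (fun x => pp 3 (uu ρ x) * ‖H x‖ ^ 2) μ :=
    integrable_mul_H_sq hM (contDiff_pp_uu 1 ρ).continuous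
      (hasCompactSupport_pp_uu 3 (by norm_num) ρ)
  have i4 : Integrable (fun x => divAlong (T x) X x) μ := integrable_div_smul hM hFC hFc 0
  have e1 : ∀ x, fderiv ℝ (fun x : E => pp 3 (uu ρ x)) x (H x) = ⟪X x, H x⟫ := by
    intro x
    rw [fderiv_pp_uu 1 ρ x (H x)]
    simp only [hX, hF, sub_zero, real_inner_smul_left]
    push_cast
    ring
  simp_rw [e1]
  have e2 := hM.fv X hXC hXc
  have e3 : ∫ x, (-(6 * m) * pp 2 (uu ρ x) + ⟪X x, H x⟫ - pp 3 (uu ρ x) * ‖H x‖ ^ 2) ∂μ
      = ∫ x, (-(6 * m) * pp 2 (uu ρ x) - divAlong (T x) X x - pp 3 (uu ρ x) * ‖H x‖ ^ 2) ∂μ := by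
    have i12 : Integrable (fun x => -(6 * m) * pp 2 (uu ρ x) + ⟪X x, H x⟫) μ := i1.add i2
    have i14 : Integrable (fun x => -(6 * m) * pp 2 (uu ρ x) - divAlong (T x) X x) μ := i1.sub i4
    rw [integral_sub i12 i3, integral_add i1 i2, integral_sub i14 i3, integral_sub i1 i4, e2]
    ring
  rw [e3]
  apply integral_nonpos_of_ae
  filter_upwards [hM.dim] with x hx
  have e4 := divAlong_smul_sub (T x) F 0 x (hFC.differentiable (by norm_num) x)
  have e5 : fderiv ℝ F x (proj (T x) (x - 0)) = 24 * pp 1 (uu ρ x) * ‖proj (T x) x‖ ^ 2 := by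
    have e6 : fderiv ℝ F x = (-6 : ℝ) • fderiv ℝ (fun x : E => pp 2 (uu ρ x)) x := by
      rw [hF]
      exact fderiv_const_mul ((contDiff_pp_uu 0 ρ).differentiable (by norm_num) x) _
    rw [e6, sub_zero]
    change -6 * fderiv ℝ (fun x : E => pp 2 (uu ρ x)) x (proj (T x) x) = _
    rw [fderiv_pp_uu 0 ρ x]
    have e7 : ⟪x, proj (T x) x⟫ = ‖proj (T x) x‖ ^ 2 := by
      have h1 : ⟪proj (T x) x, x - proj (T x) x⟫ = 0 :=
        inner_proj_of_mem_orthogonal _ _ _ (sub_proj_mem _ _)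
      rw [inner_sub_right, real_inner_self_eq_norm_sq] at h1
      rw [real_inner_comm]
      linarith
    rw [e7]
    push_cast
    ring
  rw [hx, e5] at e4
  change -(6 * (m : ℝ)) * pp 2 (uu ρ x) - divAlong (T x) (fun z => F z • (z - 0)) x
    - pp 3 (uu ρ x) * ‖H x‖ ^ 2 ≤ 0
  rw [e4]
  simp only [hF]
  have p1 : 0 ≤ pp 1 (uu ρ x) * ‖proj (T x) x‖ ^ 2 := mul_nonneg (pp_nonneg _ _) (sq_nonneg _)
  have p2 : 0 ≤ pp 3 (uu ρ x) * ‖H x‖ ^ 2 := mul_nonneg (pp_nonneg _ _) (sq_nonneg _)
  nlinarith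

end

/-- `(R² - ‖x‖² - 2mt)_+³` is non-increasing in the mean -/
lemma BF.barrier (hB : BF m μ T H) (R : ℝ) {b : ℝ} (hb : 0 ≤ b) :
    ∫ x, pp 3 (uu (R - 2 * m * b) x) ∂(μ b) ≤ ∫ x, pp 3 (uu R x) ∂(μ 0) := by
  obtain ⟨ψ, hψ, hψ0, hψ1, c, d, hd, hcd⟩ := exists_cutoff hb (show b < b + 1 by linarith)
  set φ : ℝ → E → ℝ := fun t x => ψ t * pp 3 (uu (R - 2 * m * t) x) with hφ
  have huC : ContDiff ℝ 1 (fun p : ℝ × E => uu (R - 2 * m * p.1) p.2) := by
    unfold uu
    have h1 : ContDiff ℝ 1 (fun y : E => ‖y‖ ^ 2) := contDiff_norm_sq ℝ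
    have h2 : ContDiff ℝ 1 (fun p : ℝ × E => ‖p.2‖ ^ 2) := h1.comp contDiff_snd
    have h3 : ContDiff ℝ 1 (fun p : ℝ × E => R - 2 * m * p.1) := by fun_prop
    exact h3.sub h2
  have hφC : ContDiff ℝ 1 (fun p : ℝ × E => φ p.1 p.2) :=
    (hψ.comp contDiff_fst).mul ((contDiff_pp 1).comp huC)
  have hφc : HasCompactSupport (fun p : ℝ × E => φ p.1 p.2) := by
    apply HasCompactSupport.intro (K := Icc c d ×ˢ closedBall (0 : E) (√(R - 2 * m * c)))
      (isCompact_Icc.prod (isCompact_closedBall _ _))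
    intro p hp
    by_contra h0
    apply hp
    have h1 : ψ p.1 ≠ 0 := left_ne_zero_of_mul h0
    have h2 : pp 3 (uu (R - 2 * m * p.1) p.2) ≠ 0 := right_ne_zero_of_mul h0
    obtain ⟨hc1, hd1⟩ := hcd _ h1
    refine ⟨⟨hc1, hd1⟩, ?_⟩
    have h3 : 0 < uu (R - 2 * m * p.1) p.2 := by
      by_contra h4
      push Not at h4
      apply h2
      simp [pp, max_eq_right h4]
    unfold uu at h3
    have h5 : (m : ℝ) * c ≤ m * p.1 := mul_le_mul_of_nonneg_left hc1 (Nat.cast_nonneg _)
    rw [mem_closedBall, dist_zero_right]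
    apply Real.le_sqrt_of_sq_le
    nlinarith
  have hφ0 : ∀ t x, 0 ≤ φ t x := fun t x => mul_nonneg (hψ0 t) (pp_nonneg _ _)
  obtain ⟨hI, hineq⟩ := hB.ineq φ hφC hφc hφ0 0 b le_rfl hb
  have e1 : ∫ x, φ b x ∂(μ b) = ∫ x, pp 3 (uu (R - 2 * m * b) x) ∂(μ b) := by
    congr 1
    ext x
    have := (hψ1 b ⟨hb, le_refl b⟩).self_of_nhds
    simp [hφ, this]
  have e2 : ∫ x, φ 0 x ∂(μ 0) = ∫ x, pp 3 (uu R x) ∂(μ 0) := by
    congr 1
    ext x
    have := (hψ1 0 ⟨le_refl _, hb⟩).self_of_nhds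
    simp [hφ, this]
  have e3 : ∫ t in (0 : ℝ)..b, brakkeRHS (μ t) (H t) φ t ≤ 0 := by
    rw [intervalIntegral.integral_of_le hb]
    apply integral_nonpos_of_ae
    have h1 : ∀ᵐ t ∂volume.restrict (Ioc 0 b), MC m (μ t) (T t) (H t) :=
      ae_restrict_of_ae_restrict_of_subset (fun t ht => by
        simp only [mem_Ici]; linarith [ht.1]) hB.mc
    have h2 : ∀ᵐ t ∂volume.restrict (Ioc 0 b), t ∈ Ioc 0 b := ae_restrict_mem measurableSet_Ioc
    filter_upwards [h1, h2] with t ht1 ht2
    have h3 := barrier_le ht1 (R - 2 * m * t)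
    have hψt : ∀ᶠ s in 𝓝 t, ψ s = 1 := hψ1 t ⟨by linarith [ht2.1], ht2.2⟩
    have hψtt : ψ t = 1 := hψt.self_of_nhds
    refine le_trans (le_of_eq ?_) h3
    unfold brakkeRHS
    congr 1
    ext x
    have e4 : deriv (fun τ => φ τ x) t = -(6 * m) * pp 2 (uu (R - 2 * m * t) x) := by
      have h4 : (fun τ => φ τ x) =ᶠ[𝓝 t] fun τ => pp 3 (uu (R - 2 * m * τ) x) := by
        filter_upwards [hψt] with s hs
        simp [hφ, hs]
      rw [h4.deriv_eq]
      have h5 : HasDerivAt (fun τ : ℝ => uu (R - 2 * m * τ) x) (-(2 * m)) t := by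
        unfold uu
        have := (((hasDerivAt_id t).const_mul (2 * (m : ℝ))).const_sub R).sub_const (‖x‖ ^ 2)
        simpa using this
      have h6 := (hasDerivAt_pp 1 (uu (R - 2 * m * t) x)).comp t h5
      have h7 : deriv (fun τ => pp 3 (uu (R - 2 * m * τ) x)) t
        = ((1 + 2 : ℕ) : ℝ) * pp (1 + 1) (uu (R - 2 * m * t) x) * -(2 * m) := h6.deriv
      rw [h7]
      push_cast
      ring
    have e5 : φ t = fun x => pp 3 (uu (R - 2 * m * t) x) := by
      ext z; simp [hφ, hψtt]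
    rw [e4, e5]
  rw [e1, e2] at hineq
  linarith

/-- **the total mass does not increase** -/
theorem BF.mass_le (hB : BF m μ T H) (h0 : μ 0 univ < ⊤) {b : ℝ} (hb : 0 ≤ b) :
    μ b univ ≤ μ 0 univ := by
  have hfin0 : IsFiniteMeasure (μ 0) := ⟨h0⟩
  have hfb : IsFiniteMeasureOnCompacts (μ b) := hB.fin b hb
  have key : ∀ r : ℝ, 0 < r → μ b (closedBall 0 r) ≤ μ 0 univ := by
    intro r hr
    have hball : μ b (closedBall (0 : E) r) < ⊤ := (isCompact_closedBall _ _).measure_lt_top
    -- inequality for each large R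
    have h1 : ∀ S : ℝ, r ^ 2 + 2 * m * b < S →
        (μ b).real (closedBall 0 r) * (S - 2 * m * b - r ^ 2) ^ 3 ≤ (μ 0).real univ * S ^ 3 := by
      intro S hS
      have hmb : 0 ≤ 2 * (m : ℝ) * b := by positivity
      have hS0 : 0 < S := by nlinarith [sq_nonneg r]
      have h2 := hB.barrier S hb
      have h3 : ∫ x, pp 3 (uu S x) ∂(μ 0) ≤ (μ 0).real univ * S ^ 3 := by
        have : ∫ x, pp 3 (uu S x) ∂(μ 0) ≤ ∫ x, S ^ 3 ∂(μ 0) := by
          apply integral_mono_of_nonneg (Eventually.of_forall fun x => pp_nonneg _ _)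
            (integrable_const _)
          refine Eventually.of_forall fun x => ?_
          unfold pp
          have h4 : max (uu S x) 0 ≤ S := by
            apply max_le _ hS0.le
            unfold uu
            nlinarith [sq_nonneg ‖x‖]
          have h5 : 0 ≤ max (uu S x) 0 := le_max_right _ _
          exact pow_le_pow_left₀ h5 h4 3
        rw [integral_const, smul_eq_mul] at this
        exact this
      have h4 : (μ b).real (closedBall 0 r) * (S - 2 * m * b - r ^ 2) ^ 3
          ≤ ∫ x, pp 3 (uu (S - 2 * m * b) x) ∂(μ b) := by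
        have i1 : Integrable (fun x : E => pp 3 (uu (S - 2 * m * b) x)) (μ b) :=
          (contDiff_pp_uu 1 _).continuous.integrable_of_hasCompactSupport
            (hasCompactSupport_pp_uu 3 (by norm_num) _)
        calc (μ b).real (closedBall 0 r) * (S - 2 * m * b - r ^ 2) ^ 3
            = ∫ x in closedBall (0 : E) r, (S - 2 * m * b - r ^ 2) ^ 3 ∂(μ b) := by
              rw [setIntegral_const, smul_eq_mul]
          _ ≤ ∫ x in closedBall (0 : E) r, pp 3 (uu (S - 2 * m * b) x) ∂(μ b) := by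
              apply setIntegral_mono_on
              · exact integrableOn_const hball.ne
              · exact i1.integrableOn
              · exact isClosed_closedBall.measurableSet
              · intro x hx
                rw [mem_closedBall, dist_zero_right] at hx
                unfold pp
                have h5 : S - 2 * m * b - r ^ 2 ≤ max (uu (S - 2 * m * b) x) 0 := by
                  apply le_max_of_le_left
                  unfold uu
                  have : ‖x‖ ^ 2 ≤ r ^ 2 := pow_le_pow_left₀ (norm_nonneg _) hx 2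
                  linarith
                exact pow_le_pow_left₀ (by linarith) h5 3
          _ ≤ _ := setIntegral_le_integral i1 (Eventually.of_forall fun x => pp_nonneg _ _)
      linarith
    -- pass to the limit
    have h2 : Tendsto (fun S : ℝ => (μ b).real (closedBall 0 r) * ((S - 2 * m * b - r ^ 2) / S) ^ 3)
        atTop (𝓝 ((μ b).real (closedBall 0 r) * 1 ^ 3)) := by
      apply Tendsto.const_mul
      apply Tendsto.pow
      have h3 : Tendsto (fun S : ℝ => 1 - (2 * m * b + r ^ 2) / S) atTop (𝓝 (1 - 0)) :=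
        tendsto_const_nhds.sub (tendsto_const_nhds.div_atTop tendsto_id)
      rw [sub_zero] at h3
      refine h3.congr' ?_
      filter_upwards [eventually_gt_atTop 0] with S hS
      field_simp
      ring
    have h3 : (μ b).real (closedBall 0 r) * 1 ^ 3 ≤ (μ 0).real univ := by
      apply le_of_tendsto h2
      filter_upwards [eventually_gt_atTop (r ^ 2 + 2 * m * b), eventually_gt_atTop 0] with S hS hS0
      have h4 := h1 S hS
      rw [div_pow, ← mul_div_assoc, div_le_iff₀ (by positivity)]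
      exact h4
    rw [one_pow, mul_one] at h3
    rw [measureReal_def, measureReal_def, ENNReal.toReal_le_toReal hball.ne h0.ne] at h3
    exact h3
  have h1 : (⋃ n : ℕ, closedBall (0 : E) (n + 1)) = univ := by
    apply eq_univ_of_forall
    intro x
    obtain ⟨n, hn⟩ := exists_nat_ge ‖x‖
    rw [mem_iUnion]
    refine ⟨n, ?_⟩
    rw [mem_closedBall, dist_zero_right]
    linarith
  rw [← h1, Monotone.measure_iUnion]
  · apply iSup_le
    intro n
    have := key (n + 1) (by positivity)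
    exact this.trans (by rw [h1])
  · intro i j hij
    apply closedBall_subset_closedBall
    have : (i : ℝ) ≤ j := by exact_mod_cast hij
    linarith

end Vale.Agent.P218.H552
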